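import Vale.Agent.Helper10.OneBase

/-!
# A certificate for counter-freeness of a small automaton

The states are coded by natural numbers below `n`, a map on the states by the list of its
values.  If a list `L` of such maps contains the identity, is closed under composition with
the maps of the letters, and all its members are aperiodic, then the automaton is
counter-free.
-/

namespace Vale.Agent.Helper15.F20

open Vale.Agent.Helper10

/-- the value of a coded map at a state -/
def ap (f : List ℕ) (q : ℕ) : ℕ := f.getD q 0

/-- the code of `f` followed by `g` -/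
def compN (n : ℕ) (f g : List ℕ) : List ℕ := (List.range n).map (fun q => ap g (ap f q))

/-- after `n` steps every state below `n` has reached a fixed point -/
def okMap (n : ℕ) (f : List ℕ) : Bool :=
  (List.range n).all (fun q => ap f ((ap f)^[n] q) == (ap f)^[n] q)

/-- the checker -/
def checkCF (n : ℕ) (gens L : List (List ℕ)) : Bool :=
  L.contains (List.range n) &&
    L.all (fun f => gens.all (fun g => L.contains (compN n f g)) && okMap n f)

theorem ap_range (n q : ℕ) (h : q < n) : ap (List.range n) q = q := by
  unfold ap
  rw [List.getD_eq_getElem _ _ (by simpa using h)]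
  simp

theorem ap_compN (n : ℕ) (f g : List ℕ) (q : ℕ) (h : q < n) :
    ap (compN n f g) q = ap g (ap f q) := by
  unfold compN
  show ((List.range n).map (fun q => ap g (ap f q))).getD q 0 = _
  rw [List.getD_eq_getElem _ _ (by simpa using h)]
  simp

theorem cf_of_check {Q α : Type} (δ : Q → α → Q) (enc : Q → ℕ) (n : ℕ)
    (henc : Function.Injective enc) (hlt : ∀ q, enc q < n) (tab : α → List ℕ)
    (gens L : List (List ℕ)) (htab : ∀ a, tab a ∈ gens)
    (hstep : ∀ q a, enc (δ q a) = ap (tab a) (enc q))
    (hc : checkCF n gens L = true) : CounterFree δ := by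
  unfold checkCF at hc
  rw [Bool.and_eq_true] at hc
  obtain ⟨hid, hall⟩ := hc
  have hid' : List.range n ∈ L := by simpa using hid
  rw [List.all_eq_true] at hall
  have hclosed : ∀ f ∈ L, ∀ g ∈ gens, compN n f g ∈ L := by
    intro f hf g hg
    have h1 := hall f hf
    rw [Bool.and_eq_true, List.all_eq_true] at h1
    simpa using h1.1 g hg
  have hok : ∀ f ∈ L, ∀ q, q < n → ap f ((ap f)^[n] q) = (ap f)^[n] q := by
    intro f hf q hq
    have h1 := hall f hf
    rw [Bool.and_eq_true] at h1
    have h2 := h1.2
    unfold okMap at h2
    rw [List.all_eq_true] at h2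
    simpa using h2 q (by simpa using hq)
  have key : ∀ w : List α, ∃ f ∈ L, ∀ q : Q, enc (run δ q w) = ap f (enc q) := by
    intro w
    induction w using List.reverseRecOn with
    | nil => exact ⟨List.range n, hid', fun q => by rw [run_nil, ap_range n _ (hlt q)]⟩
    | append_singleton w a ih =>
      obtain ⟨f, hf, h⟩ := ih
      refine ⟨compN n f (tab a), hclosed f hf (tab a) (htab a), fun q => ?_⟩
      rw [run_append, run_cons, run_nil, hstep, h, ap_compN n f (tab a) _ (hlt q)]
  intro w q k hk hq
  obtain ⟨f, hf, h⟩ := key w
  have hit : ∀ (j : ℕ) (x : Q),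
      enc ((fun x => run δ x w)^[j] x) = (ap f)^[j] (enc x) := by
    intro j
    induction j with
    | zero => intro x; rfl
    | succ j ih =>
      intro x
      rw [Function.iterate_succ_apply, Function.iterate_succ_apply, ih, h]
  have h1 : (ap f)^[k] (enc q) = enc q := by rw [← hit, hq]
  have h2 : ap f ((ap f)^[n] (enc q)) = (ap f)^[n] (enc q) := hok f hf _ (hlt q)
  have h3 : (ap f)^[k * n] (enc q) = enc q := by
    rw [Function.iterate_mul]
    exact Function.iterate_fixed h1 n
  have h5 : (ap f)^[n] (enc q) = enc q := by
    have e : k * n = (k * n - n) + n := (Nat.sub_add_cancel (Nat.le_mul_of_pos_left n hk)).symm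
    rw [e, Function.iterate_add_apply, Function.iterate_fixed h2] at h3
    exact h3
  rw [h5] at h2
  apply henc
  rw [h, h2]

end Vale.Agent.Helper15.F20
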