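import Vale.Agent.Helper15.F20Cert

/-!
# A cheaper certificate for counter-freeness of an automaton with ten states

A map on the states `0, …, 9` is coded by one natural number written in base 16: the digit
at place `q` is the value of the map at `q`.  A set of maps is coded by a binary tree of such
codes.  If a tree contains the code of the identity, is closed under composition with the
codes of the letters, and the sixteenth power of each member is fixed by the member, then
the automaton is counter-free.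
-/

namespace Vale.Agent.Helper15.F20

open Vale.Agent.Helper10

/-- the digit of `c` at place `q` in base 16 -/
def dg (c q : ℕ) : ℕ := Nat.mod (Nat.div c (Nat.pow 16 q)) 16

theorem dg_eq (c q : ℕ) : dg c q = c / 16 ^ q % 16 := rfl

theorem dg_lt (c q : ℕ) : dg c q < 16 := by
  rw [dg_eq]
  exact Nat.mod_lt _ (by norm_num)

/-- the number with the ten given digits -/
def pk (d0 d1 d2 d3 d4 d5 d6 d7 d8 d9 : ℕ) : ℕ :=
  Nat.add d0 (Nat.mul 16 (Nat.add d1 (Nat.mul 16 (Nat.add d2 (Nat.mul 16 (Nat.add d3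
    (Nat.mul 16 (Nat.add d4 (Nat.mul 16 (Nat.add d5 (Nat.mul 16 (Nat.add d6 (Nat.mul 16
      (Nat.add d7 (Nat.mul 16 (Nat.add d8 (Nat.mul 16 d9)))))))))))))))))

theorem pk_eq (d0 d1 d2 d3 d4 d5 d6 d7 d8 d9 : ℕ) :
    pk d0 d1 d2 d3 d4 d5 d6 d7 d8 d9 = d0 + 16 * (d1 + 16 * (d2 + 16 * (d3 + 16 * (d4 +
      16 * (d5 + 16 * (d6 + 16 * (d7 + 16 * (d8 + 16 * d9)))))))) := rfl

theorem dg_pk (d0 d1 d2 d3 d4 d5 d6 d7 d8 d9 : ℕ) (h0 : d0 < 16) (h1 : d1 < 16)
    (h2 : d2 < 16) (h3 : d3 < 16) (h4 : d4 < 16) (h5 : d5 < 16) (h6 : d6 < 16)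
    (h7 : d7 < 16) (h8 : d8 < 16) (h9 : d9 < 16) (q : ℕ) (hq : q < 10) :
    dg (pk d0 d1 d2 d3 d4 d5 d6 d7 d8 d9) q
      = [d0, d1, d2, d3, d4, d5, d6, d7, d8, d9].getD q 0 := by
  rw [dg_eq, pk_eq]
  interval_cases q <;> norm_num <;> omega

/-- the code of `f` followed by `g` -/
def cmp (f g : ℕ) : ℕ :=
  pk (dg g (dg f 0)) (dg g (dg f 1)) (dg g (dg f 2)) (dg g (dg f 3)) (dg g (dg f 4))
    (dg g (dg f 5)) (dg g (dg f 6)) (dg g (dg f 7)) (dg g (dg f 8)) (dg g (dg f 9))

theorem dg_cmp (f g q : ℕ) (hq : q < 10) : dg (cmp f g) q = dg g (dg f q) := by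
  unfold cmp
  rw [dg_pk _ _ _ _ _ _ _ _ _ _ (dg_lt _ _) (dg_lt _ _) (dg_lt _ _) (dg_lt _ _) (dg_lt _ _)
    (dg_lt _ _) (dg_lt _ _) (dg_lt _ _) (dg_lt _ _) (dg_lt _ _) q hq]
  interval_cases q <;> rfl

/-- the code of the identity -/
def idc : ℕ := 0x9876543210

theorem dg_idc (q : ℕ) (hq : q < 10) : dg idc q = q := by
  interval_cases q <;> rfl

/-- the code of `f` followed by `f` -/
def sq (f : ℕ) : ℕ := cmp f f

/-- the sixteenth power of `f` is fixed by `f` -/
def okc (f : ℕ) : Bool := Nat.beq (cmp (sq (sq (sq (sq f)))) f) (sq (sq (sq (sq f))))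

/-- a binary tree of codes -/
inductive Tr : Type
  | lf : Tr
  | nd : Tr → ℕ → Tr → Tr

/-- the search for a code in a tree -/
def Tr.has (c : ℕ) : Tr → Bool
  | Tr.lf => false
  | Tr.nd l v r => cond (Nat.beq c v) true (cond (Nat.ble c v) (Tr.has c l) (Tr.has c r))

/-- a test holds at every code of a tree -/
def Tr.all (p : ℕ → Bool) : Tr → Bool
  | Tr.lf => true
  | Tr.nd l v r => Tr.all p l && (p v && Tr.all p r)

/-- the codes of a tree -/
def Tr.In (c : ℕ) : Tr → Prop
  | Tr.lf => False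
  | Tr.nd l v r => Tr.In c l ∨ c = v ∨ Tr.In c r

theorem Tr.has_In (c : ℕ) : ∀ t : Tr, Tr.has c t = true → Tr.In c t := by
  intro t
  induction t with
  | lf => intro h; exact absurd h (by simp [Tr.has])
  | nd l v r ihl ihr =>
    intro h
    unfold Tr.has at h
    unfold Tr.In
    cases h1 : Nat.beq c v with
    | true => exact Or.inr (Or.inl (Nat.eq_of_beq_eq_true h1))
    | false =>
      rw [h1] at h
      cases h2 : Nat.ble c v with
      | true =>
        rw [h2] at h
        exact Or.inl (ihl h)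
      | false =>
        rw [h2] at h
        exact Or.inr (Or.inr (ihr h))

theorem Tr.all_In (p : ℕ → Bool) : ∀ t : Tr, Tr.all p t = true → ∀ c, Tr.In c t → p c = true := by
  intro t
  induction t with
  | lf => intro _ c hc; exact absurd hc (by simp [Tr.In])
  | nd l v r ihl ihr =>
    intro h c hc
    unfold Tr.all at h
    rw [Bool.and_eq_true, Bool.and_eq_true] at h
    unfold Tr.In at hc
    rcases hc with hc | hc | hc
    · exact ihl h.1 c hc
    · rw [hc]; exact h.2.1
    · exact ihr h.2.2 c hc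

/-- the checker -/
def checkT (gens : List ℕ) (t : Tr) : Bool :=
  Tr.has idc t && Tr.all (fun f => gens.all (fun g => Tr.has (cmp f g) t) && okc f) t

theorem rep_cmp {Q : Type} (enc : Q → ℕ) (hlt : ∀ q, enc q < 10) (F G : Q → Q) (f g : ℕ)
    (hF : ∀ x, enc (F x) = dg f (enc x)) (hG : ∀ x, enc (G x) = dg g (enc x)) (x : Q) :
    enc (G (F x)) = dg (cmp f g) (enc x) := by
  rw [dg_cmp f g _ (hlt x), ← hF, hG]

theorem rep_sq {Q : Type} (enc : Q → ℕ) (hlt : ∀ q, enc q < 10) (F : Q → Q) (f : ℕ) (n : ℕ)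
    (hF : ∀ x, enc (F^[n] x) = dg f (enc x)) (x : Q) :
    enc (F^[n + n] x) = dg (sq f) (enc x) := by
  rw [Function.iterate_add_apply]
  exact rep_cmp enc hlt (F^[n]) (F^[n]) f f hF hF x

theorem fix_of_rep {Q : Type} (enc : Q → ℕ) (henc : Function.Injective enc)
    (hlt : ∀ q, enc q < 10) (F : Q → Q) (f : ℕ) (h1 : ∀ x, enc (F x) = dg f (enc x))
    (hok : okc f = true) (q : Q) (k : ℕ) (hk : 0 < k) (hq : F^[k] q = q) : F q = q := by
  have h1' : ∀ x, enc (F^[1] x) = dg f (enc x) := h1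
  have h2 : ∀ x, enc (F^[2] x) = dg (sq f) (enc x) := rep_sq enc hlt F f 1 h1'
  have h4 : ∀ x, enc (F^[4] x) = dg (sq (sq f)) (enc x) := rep_sq enc hlt F _ 2 h2
  have h8 : ∀ x, enc (F^[8] x) = dg (sq (sq (sq f))) (enc x) := rep_sq enc hlt F _ 4 h4
  have h16 : ∀ x, enc (F^[16] x) = dg (sq (sq (sq (sq f)))) (enc x) := rep_sq enc hlt F _ 8 h8
  have e : cmp (sq (sq (sq (sq f)))) f = sq (sq (sq (sq f))) := Nat.eq_of_beq_eq_true hok
  have hfix : ∀ x, F (F^[16] x) = F^[16] x := by
    intro x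
    apply henc
    rw [rep_cmp enc hlt (F^[16]) F _ f h16 h1 x, e, h16]
  have h3 : F^[k * 16] q = q := by
    rw [Function.iterate_mul]
    exact Function.iterate_fixed hq 16
  have h5 : F^[16] q = q := by
    have e2 : k * 16 = (k * 16 - 16) + 16 :=
      (Nat.sub_add_cancel (Nat.le_mul_of_pos_left 16 hk)).symm
    rw [e2, Function.iterate_add_apply, Function.iterate_fixed (hfix q)] at h3
    exact h3
  have h6 := hfix q
  rw [h5] at h6
  exact h6

theorem cf_of_checkT {Q α : Type} (δ : Q → α → Q) (enc : Q → ℕ)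
    (henc : Function.Injective enc) (hlt : ∀ q, enc q < 10) (tab : α → ℕ)
    (gens : List ℕ) (t : Tr) (htab : ∀ a, tab a ∈ gens)
    (hstep : ∀ q a, enc (δ q a) = dg (tab a) (enc q))
    (hc : checkT gens t = true) : CounterFree δ := by
  unfold checkT at hc
  rw [Bool.and_eq_true] at hc
  obtain ⟨hid, hall⟩ := hc
  have hid' : Tr.In idc t := Tr.has_In _ t hid
  have hall' := Tr.all_In _ t hall
  have hclosed : ∀ f, Tr.In f t → ∀ g ∈ gens, Tr.In (cmp f g) t := by
    intro f hf g hg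
    have h1 := hall' f hf
    rw [Bool.and_eq_true, List.all_eq_true] at h1
    exact Tr.has_In _ t (h1.1 g hg)
  have hok : ∀ f, Tr.In f t → okc f = true := by
    intro f hf
    have h1 := hall' f hf
    rw [Bool.and_eq_true] at h1
    exact h1.2
  have key : ∀ w : List α, ∃ f, Tr.In f t ∧ ∀ q : Q, enc (run δ q w) = dg f (enc q) := by
    intro w
    induction w using List.reverseRecOn with
    | nil => exact ⟨idc, hid', fun q => by rw [run_nil, dg_idc _ (hlt q)]⟩
    | append_singleton w a ih =>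
      obtain ⟨f, hf, h⟩ := ih
      refine ⟨cmp f (tab a), hclosed f hf (tab a) (htab a), fun q => ?_⟩
      rw [run_append, run_cons, run_nil, hstep, h, dg_cmp f (tab a) _ (hlt q)]
  intro w q k hk hq
  obtain ⟨f, hf, h⟩ := key w
  exact fix_of_rep enc henc hlt (fun x => run δ x w) f h (hok f hf) q k hk hq

end Vale.Agent.Helper15.F20
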