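import Vale.Agent.Helper15.F20Run

/-!
# Languages recognised by the group of order 20 through its two standard generators

Main statements: `gsh_coords` (in the coordinates (a, T) of the affine group of `ZMod 5`) and
`gsh_group` (for any group with elements `g`, `r` such that `r ^ 5 = 1`, `g ^ 4 = 1`,
`g * r * g⁻¹ = r ^ 2`, and letters mapped to `1`, `g` or the involution `r * g ^ 2`).
-/

namespace Vale.Agent.Helper15.F20

open Vale.Agent.Helper10

variable {α : Type}

theorem cf_kind (c0 c1 : ZMod 5) (q0 : ZMod 5 × Bool) (kind : α → LK)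
    (h : CounterFree (absorb (stepC c0 c1) q0)) :
    CounterFree (absorb (fun q a => stepC c0 c1 q (kind a)) q0) := by
  have e : ∀ (w : List α) (x : ZMod 5 × Bool),
      run (absorb (fun q a => stepC c0 c1 q (kind a)) q0) x w
        = run (absorb (stepC c0 c1) q0) x (w.map kind) := by
    intro w x
    rw [run_map]
    rfl
  intro w q n hn hq
  have e2 : (fun x => run (absorb (fun q a => stepC c0 c1 q (kind a)) q0) x w)
      = (fun x => run (absorb (stepC c0 c1) q0) x (w.map kind)) := funext (e w)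
  rw [e2] at hq
  rw [e]
  exact h (w.map kind) q n hn hq

/-- Every language recognised through the coordinates (a, T) has generalized star height
at most one: the letters act by `grpStep` according to their kind. -/
theorem gsh_coords [Finite α] (kind : α → LK) (S : Set (ZMod 5 × ZMod 5)) :
    HasGSH 1 (fun w : List α => run grpStep (1, 0) (w.map kind) ∈ S) := by
  have hB := fun p q => one_base (fun q a => stepC 1 0 q (kind a)) (1, false)
    (cf_kind 1 0 (1, false) kind cfB) p q
  have hA := fun p q => one_base (fun q a => stepC 1 4 q (kind a)) (3, false)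
    (cf_kind 1 4 (3, false) kind cfA) p q
  have h1 : HasGSH 1 (fun w : List α => ∃ u0 u1 v0 : ZMod 5 × Bool,
      (run (fun q a => stepC 1 0 q (kind a)) (0, false) w = u0 ∧
        run (fun q a => stepC 1 0 q (kind a)) (1, false) w = u1) ∧
      run (fun q a => stepC 1 4 q (kind a)) (0, false) w = v0 ∧
        recov u0.1 u1.1 v0.1 ∈ S) :=
    HasGSH.exists_ _ (fun u0 => HasGSH.exists_ _ (fun u1 => HasGSH.exists_ _ (fun v0 =>
      ((hB _ u0).and (hB _ u1)).and ((hA _ v0).and (HasGSH.const 1 _)))))
  refine h1.congr (fun w => ?_)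
  rw [grp_recov, run_map, run_map, run_map]
  constructor
  · rintro ⟨u0, u1, v0, ⟨rfl, rfl⟩, rfl, h⟩
    exact h
  · intro h
    exact ⟨_, _, _, ⟨rfl, rfl⟩, rfl, h⟩

section group

variable {G : Type} [Group G]

/-- the discrete logarithm to the base `2` in `ZMod 5` -/
def dlog (a : ZMod 5) : ℕ := if a = 2 then 1 else if a = 4 then 2 else if a = 3 then 3 else 0

/-- the group element with coordinates (a, T) -/
def elt (g r : G) (p : ZMod 5 × ZMod 5) : G := r ^ (-p.2).val * g ^ dlog p.1

/-- the group element of a letter kind -/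
def valK (g r : G) : LK → G
  | LK.idl => 1
  | LK.up => g
  | LK.refl => r * g ^ 2

theorem conj_rule (g r : G) (hgr : g * r * g⁻¹ = r ^ 2) :
    ∀ l : ℕ, g ^ l * r = r ^ (2 ^ l) * g ^ l := by
  have h1 : ∀ m : ℕ, g * r ^ m = r ^ (2 * m) * g := by
    intro m
    have e : g * r ^ m * g⁻¹ = r ^ (2 * m) := by
      rw [← conj_pow, hgr, ← pow_mul]
    rw [← e, inv_mul_cancel_right]
  intro l
  induction l with
  | zero => simp
  | succ l ih =>
    rw [pow_succ', mul_assoc, ih, ← mul_assoc, h1, mul_assoc, ← pow_succ', pow_succ' 2 l]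

theorem dlog_up : ∀ a : ZMod 5, a ≠ 0 → dlog (2 * a) % 4 = (dlog a + 1) % 4 := by decide

theorem dlog_refl : ∀ a : ZMod 5, a ≠ 0 → dlog (-a) % 4 = (dlog a + 2) % 4 := by decide

theorem exp_refl : ∀ a b : ZMod 5, a ≠ 0 →
    ((-b).val + 2 ^ dlog a) % 5 = (-(b - a)).val % 5 := by decide

theorem ne_up : ∀ a : ZMod 5, a ≠ 0 → 2 * a ≠ 0 ∧ -a ≠ 0 := by decide

theorem elt_step (g r : G) (hr : r ^ 5 = 1) (hg : g ^ 4 = 1) (hgr : g * r * g⁻¹ = r ^ 2)
    (p : ZMod 5 × ZMod 5) (hp : p.1 ≠ 0) (k : LK) :
    elt g r p * valK g r k = elt g r (grpStep p k) := by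
  obtain ⟨a, b⟩ := p
  simp only at hp
  cases k with
  | idl => exact mul_one _
  | up =>
    show r ^ (-b).val * g ^ dlog a * g = r ^ (-b).val * g ^ dlog (2 * a)
    rw [mul_assoc, ← pow_succ, pow_eq_pow_mod (dlog a + 1) hg, pow_eq_pow_mod (dlog (2 * a)) hg,
      dlog_up a hp]
  | refl =>
    show r ^ (-b).val * g ^ dlog a * (r * g ^ 2) = r ^ (-(b - a)).val * g ^ dlog (-a)
    rw [mul_assoc, ← mul_assoc (g ^ dlog a), conj_rule g r hgr, mul_assoc, ← pow_add,
      ← mul_assoc, ← pow_add, pow_eq_pow_mod ((-b).val + 2 ^ dlog a) hr,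
      pow_eq_pow_mod (-(b - a)).val hr, exp_refl a b hp, pow_eq_pow_mod (dlog a + 2) hg,
      pow_eq_pow_mod (dlog (-a)) hg, dlog_refl a hp]

theorem elt_run (g r : G) (hr : r ^ 5 = 1) (hg : g ^ 4 = 1) (hgr : g * r * g⁻¹ = r ^ 2) :
    ∀ (w : List LK) (p : ZMod 5 × ZMod 5), p.1 ≠ 0 →
      elt g r p * (w.map (valK g r)).prod = elt g r (run grpStep p w) := by
  intro w
  induction w with
  | nil => intro p _; simp
  | cons k w ih =>
    intro p hp
    rw [List.map_cons, List.prod_cons, ← mul_assoc, elt_step g r hr hg hgr p hp k, run_cons]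
    apply ih
    obtain ⟨a, b⟩ := p
    simp only at hp
    cases k with
    | idl => exact hp
    | up => exact (ne_up a hp).1
    | refl => exact (ne_up a hp).2

/-- Let `G` be a group with elements `g`, `r` such that `r ^ 5 = 1`, `g ^ 4 = 1` and
`g * r * g⁻¹ = r ^ 2` (for instance the Frobenius group of order 20, where `r * g ^ 2` is an
involution and `G` is generated by `g` and `r * g ^ 2`).  If every letter is mapped to `1`,
to `g` or to `r * g ^ 2`, then every language recognised by this map has generalized star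
height at most one. -/
theorem gsh_group [Finite α] (g r : G) (hr : r ^ 5 = 1) (hg : g ^ 4 = 1)
    (hgr : g * r * g⁻¹ = r ^ 2) (f : α → G)
    (hf : ∀ a, f a = 1 ∨ f a = g ∨ f a = r * g ^ 2) (T : Set G) :
    HasGSH 1 (fun w : List α => (w.map f).prod ∈ T) := by
  have hk : ∀ a, ∃ k : LK, f a = valK g r k := by
    intro a
    rcases hf a with h | h | h
    · exact ⟨LK.idl, h⟩
    · exact ⟨LK.up, h⟩
    · exact ⟨LK.refl, h⟩
  choose kind hkind using hk
  have h1 := gsh_coords kind {p | elt g r p ∈ T}
  refine h1.congr (fun w => ?_)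
  have e1 : w.map f = (w.map kind).map (valK g r) := by
    rw [List.map_map]
    exact List.map_congr_left (fun a _ => hkind a)
  have e2 := elt_run g r hr hg hgr (w.map kind) (1, 0) (by decide)
  have e3 : elt g r (1, 0) = 1 := by
    have hd : dlog 1 = 0 := by decide
    have hv : (-(0 : ZMod 5)).val = 0 := by decide
    show r ^ (-(0 : ZMod 5)).val * g ^ dlog 1 = 1
    rw [hd, hv, pow_zero, pow_zero, one_mul]
  rw [e3, one_mul] at e2
  rw [e1, e2]
  rfl

end group

end Vale.Agent.Helper15.F20
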