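import Vale.Agent.Helper15.F20Data

/-!
# The group of order 20 with its two standard generators: run formulas and the main statement

`grpStep` is the multiplication rule of the affine group of `ZMod 5` in coordinates
(a, T) (multiplier and translation part): the generator of order four sends (a, T) to
(2 a, T), the reflection sends it to (-a, T - a).
-/

namespace Vale.Agent.Helper15.F20

open Vale.Agent.Helper10

/-- right multiplication by a generator in the coordinates (a, T) -/
def grpStep (p : ZMod 5 × ZMod 5) : LK → ZMod 5 × ZMod 5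
  | LK.idl => p
  | LK.up => (2 * p.1, p.2)
  | LK.refl => (-p.1, p.2 - p.1)

/-- multiplier, the two parts of the translation part, and the phase -/
def statStep (s : ZMod 5 × ZMod 5 × ZMod 5 × Bool) : LK → ZMod 5 × ZMod 5 × ZMod 5 × Bool
  | LK.idl => s
  | LK.up => (2 * s.1, s.2.1, s.2.2.1, false)
  | LK.refl =>
    if s.2.2.2 = true then (-s.1, s.2.1, s.2.2.1 - s.1, false)
    else (-s.1, s.2.1 - s.1, s.2.2.1, true)

theorem five_zero : (5 : ZMod 5) = 0 := by decide

/-- the invariant linking a state of the accumulator automaton and the statistics -/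
def Inv (c0 c1 x : ZMod 5) (q : ZMod 5 × Bool) (s : ZMod 5 × ZMod 5 × ZMod 5 × Bool) : Prop :=
  q.2 = s.2.2.2 ∧ q.1 * s.1 = x + c0 * s.2.1 + c1 * s.2.2.1

theorem inv_step (c0 c1 x : ZMod 5) (q : ZMod 5 × Bool)
    (s : ZMod 5 × ZMod 5 × ZMod 5 × Bool) (k : LK) (h : Inv c0 c1 x q s) :
    Inv c0 c1 x (stepC c0 c1 q k) (statStep s k) := by
  obtain ⟨t, p⟩ := q
  obtain ⟨a, S0, S1, p'⟩ := s
  obtain ⟨h1, h2⟩ := h
  simp only at h1 h2
  subst h1
  cases k with
  | idl => exact ⟨rfl, h2⟩
  | up =>
    refine ⟨rfl, ?_⟩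
    show 3 * t * (2 * a) = x + c0 * S0 + c1 * S1
    linear_combination h2 + t * a * five_zero
  | refl =>
    cases p with
    | true =>
      refine ⟨rfl, ?_⟩
      show (c1 - t) * (-a) = x + c0 * S0 + c1 * (S1 - a)
      linear_combination h2
    | false =>
      refine ⟨rfl, ?_⟩
      show (c0 - t) * (-a) = x + c0 * (S0 - a) + c1 * S1
      linear_combination h2

theorem inv_run (c0 c1 x : ZMod 5) : ∀ (w : List LK) (q : ZMod 5 × Bool)
    (s : ZMod 5 × ZMod 5 × ZMod 5 × Bool), Inv c0 c1 x q s →
    Inv c0 c1 x (run (stepC c0 c1) q w) (run statStep s w) := by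
  intro w
  induction w with
  | nil => intro q s h; exact h
  | cons k w ih =>
    intro q s h
    rw [run_cons, run_cons]
    exact ih _ _ (inv_step c0 c1 x q s k h)

theorem grp_run : ∀ (w : List LK) (s : ZMod 5 × ZMod 5 × ZMod 5 × Bool),
    run grpStep (s.1, s.2.1 + s.2.2.1) w
      = ((run statStep s w).1, (run statStep s w).2.1 + (run statStep s w).2.2.1) := by
  intro w
  induction w with
  | nil => intro s; rfl
  | cons k w ih =>
    intro s
    rw [run_cons, run_cons]
    have e : grpStep (s.1, s.2.1 + s.2.2.1) k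
        = ((statStep s k).1, (statStep s k).2.1 + (statStep s k).2.2.1) := by
      obtain ⟨a, S0, S1, p⟩ := s
      cases k with
      | idl => rfl
      | up => rfl
      | refl =>
        cases p with
        | true =>
          show (-a, S0 + S1 - a) = (-a, S0 + (S1 - a))
          rw [add_sub_assoc]
        | false =>
          show (-a, S0 + S1 - a) = (-a, S0 - a + S1)
          rw [sub_add_eq_add_sub]
    rw [e]
    exact ih _

/-- the pair (a, T) from three coordinates of runs of the two automata -/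
def recov (u0 u1 v0 : ZMod 5) : ZMod 5 × ZMod 5 :=
  ((u1 - u0) ^ 3, (2 * u0 - v0) * (u1 - u0) ^ 3)

theorem inv_cube : ∀ d a : ZMod 5, d * a = 1 → d ^ 3 = a := by decide

theorem recov_spec (a S0 S1 u0 u1 v0 : ZMod 5)
    (h0 : u0 * a = 0 + 1 * S0 + 0 * S1) (h1 : u1 * a = 1 + 1 * S0 + 0 * S1)
    (h2 : v0 * a = 0 + 1 * S0 + 4 * S1) : recov u0 u1 v0 = (a, S0 + S1) := by
  have hd : (u1 - u0) * a = 1 := by linear_combination h1 - h0
  have hc : (u1 - u0) ^ 3 = a := inv_cube _ _ hd
  unfold recov
  rw [hc]
  refine Prod.ext rfl ?_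
  show (2 * u0 - v0) * a = S0 + S1
  linear_combination 2 * h0 - h2 - S1 * five_zero

/-- the coordinates (a, T) of a word are determined by three runs of the two automata -/
theorem grp_recov (w : List LK) :
    run grpStep (1, 0) w
      = recov (run (stepC 1 0) (0, false) w).1 (run (stepC 1 0) (1, false) w).1
          (run (stepC 1 4) (0, false) w).1 := by
  have e := grp_run w (1, 0, 0, false)
  have e' : ((1 : ZMod 5), (0 : ZMod 5) + 0) = (1, 0) := by rw [add_zero]
  rw [e'] at e
  rw [e]
  have hB0 := inv_run 1 0 0 w (0, false) (1, 0, 0, false) ⟨rfl, by simp⟩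
  have hB1 := inv_run 1 0 1 w (1, false) (1, 0, 0, false) ⟨rfl, by simp⟩
  have hA0 := inv_run 1 4 0 w (0, false) (1, 0, 0, false) ⟨rfl, by simp⟩
  exact (recov_spec _ _ _ _ _ _ hB0.2 hB1.2 hA0.2).symm

end Vale.Agent.Helper15.F20
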