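import Vale.Agent.Helper15.F20Main
import Vale.Agent.Helper10.PMFinal

/-!
# Two-letter alphabets into the group of order 20

`gsh_f20_two`: let `G` be a group all of whose elements have the form `r ^ i * g ^ j`, where
`r ^ 5 = 1`, `g ^ 4 = 1` and `g * r * g⁻¹ = r ^ 2` (the Frobenius group of order 20 and its
quotients).  If the letters are mapped to `1` or to one of two arbitrary elements `a`, `b` of
`G`, then every language recognised by this map has generalized star height at most one.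

The proof distinguishes the cosets of the normal subgroup generated by `r`:
* both letters in the cosets of `1`, `g`, `g⁻¹`: two-way clocks (`coset_pm_gsh`);
* both letters in the cosets of `1`, `g ^ 2`: two-way clocks for `g ^ 2`;
* one letter in the coset of `g`, one in the coset of `g ^ 2`: conjugate to `gsh_group`;
* one letter in the coset of `g⁻¹`, one in the coset of `g ^ 2`: the mirror image
  `gsh_group_inv`, obtained from `gsh_group` by reading words backwards.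
-/

namespace Vale.Agent.Helper15.F20

open Vale.Agent.Helper10

section rev

variable {α : Type}

/-- the mirror image of a generalized regular expression -/
def grev : GRE α → GRE α
  | GRE.zero => GRE.zero
  | GRE.one => GRE.one
  | GRE.letter a => GRE.letter a
  | GRE.plus P Q => GRE.plus (grev P) (grev Q)
  | GRE.cat P Q => GRE.cat (grev Q) (grev P)
  | GRE.compl P => GRE.compl (grev P)
  | GRE.star P => GRE.star (grev P)

theorem grev_height (e : GRE α) : (grev e).height = e.height := by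
  induction e with
  | zero => rfl
  | one => rfl
  | letter a => rfl
  | plus P Q ihP ihQ => simp only [grev, GRE.height, ihP, ihQ]
  | cat P Q ihP ihQ => simp only [grev, GRE.height, ihP, ihQ, max_comm]
  | compl P ih => simp only [grev, GRE.height, ih]
  | star P ih => simp only [grev, GRE.height, ih]

theorem grev_lang (e : GRE α) : (grev e).lang = e.lang.reverse := by
  induction e with
  | zero => rfl
  | one => simp only [grev, GRE.lang, Language.reverse_one]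
  | letter a =>
    ext w
    show w ∈ ({[a]} : Set (List α)) ↔ w.reverse ∈ ({[a]} : Set (List α))
    simp only [Set.mem_singleton_iff]
    constructor
    · intro h
      rw [h]
      rfl
    · intro h
      have h2 := congrArg List.reverse h
      rw [List.reverse_reverse] at h2
      rw [h2]
      rfl
  | plus P Q ihP ihQ => simp only [grev, GRE.lang, ihP, ihQ, Language.reverse_add]
  | cat P Q ihP ihQ => simp only [grev, GRE.lang, ihP, ihQ, Language.reverse_mul]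
  | compl P ih =>
    ext w
    simp only [grev, GRE.lang, ih]
    rfl
  | star P ih => simp only [grev, GRE.lang, ih, Language.reverse_kstar]

/-- generalized star height is invariant under reading words backwards -/
theorem HasGSH_reverse {h : ℕ} {p : List α → Prop} (hp : HasGSH h p) :
    HasGSH h (fun w => p w.reverse) := by
  obtain ⟨e, he, hl⟩ := hp
  refine ⟨grev e, by rw [grev_height]; exact he, fun w => ?_⟩
  rw [grev_lang, Language.mem_reverse]
  exact hl w.reverse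

end rev

section two

variable {α G : Type} [Group G]

theorem g_r_pow (g r : G) (hgr : g * r * g⁻¹ = r ^ 2) (m : ℕ) :
    g * r ^ m = r ^ (2 * m) * g := by
  have h : g * r ^ m * g⁻¹ = r ^ (2 * m) := by
    rw [← conj_pow, hgr, ← pow_mul]
  rw [← h, inv_mul_cancel_right]

theorem gpow_r_pow (g r : G) (hgr : g * r * g⁻¹ = r ^ 2) (j m : ℕ) :
    g ^ j * r ^ m = r ^ (2 ^ j * m) * g ^ j := by
  induction j with
  | zero => simp
  | succ j ih =>
    have e : 2 * (2 ^ j * m) = 2 ^ (j + 1) * m := by ring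
    calc g ^ (j + 1) * r ^ m = g * (g ^ j * r ^ m) := by rw [pow_succ', mul_assoc]
      _ = g * (r ^ (2 ^ j * m) * g ^ j) := by rw [ih]
      _ = (g * r ^ (2 ^ j * m)) * g ^ j := by rw [mul_assoc]
      _ = (r ^ (2 * (2 ^ j * m)) * g) * g ^ j := by rw [g_r_pow g r hgr]
      _ = r ^ (2 ^ (j + 1) * m) * g ^ (j + 1) := by rw [e, mul_assoc, ← pow_succ']

/-- the element `r * g ^ 2` is an involution -/
theorem refl_sq (g r : G) (hr : r ^ 5 = 1) (hg : g ^ 4 = 1) (hgr : g * r * g⁻¹ = r ^ 2) :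
    (r * g ^ 2) * (r * g ^ 2) = 1 := by
  have h2 := gpow_r_pow g r hgr 2 1
  rw [pow_one] at h2
  calc (r * g ^ 2) * (r * g ^ 2) = r * (g ^ 2 * r) * g ^ 2 := by simp only [mul_assoc]
    _ = r * (r ^ (2 ^ 2 * 1) * g ^ 2) * g ^ 2 := by rw [h2]
    _ = r ^ 5 * g ^ 4 := by
        have e5 : r ^ 5 = r * r ^ 4 := by rw [← pow_succ']
        have e4 : g ^ 4 = g ^ 2 * g ^ 2 := by rw [← pow_add]
        rw [e5, e4]
        norm_num [mul_assoc]
    _ = 1 := by rw [hr, hg, one_mul]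

theorem prod_inv_rev (f : α → G) (w : List α) :
    (w.reverse.map (fun a => (f a)⁻¹)).prod = ((w.map f).prod)⁻¹ := by
  induction w with
  | nil => simp
  | cons a w ih =>
    rw [List.reverse_cons, List.map_append, List.prod_append, ih]
    simp [mul_inv_rev]

/-- The mirror image of `gsh_group`: letters mapped to `1`, to `g⁻¹` or to `r * g ^ 2`. -/
theorem gsh_group_inv [Finite α] (g r : G) (hr : r ^ 5 = 1) (hg : g ^ 4 = 1)
    (hgr : g * r * g⁻¹ = r ^ 2) (f : α → G)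
    (hf : ∀ a, f a = 1 ∨ f a = g⁻¹ ∨ f a = r * g ^ 2) (T : Set G) :
    HasGSH 1 (fun w : List α => (w.map f).prod ∈ T) := by
  have hinv : (r * g ^ 2)⁻¹ = r * g ^ 2 := inv_eq_of_mul_eq_one_right (refl_sq g r hr hg hgr)
  have h1 := gsh_group g r hr hg hgr (fun a => (f a)⁻¹)
    (fun a => by
      rcases hf a with h | h | h
      · left
        show (f a)⁻¹ = 1
        rw [h, inv_one]
      · right
        left
        show (f a)⁻¹ = g
        rw [h, inv_inv]
      · right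
        right
        show (f a)⁻¹ = r * g ^ 2
        rw [h, hinv])
    {t | t⁻¹ ∈ T}
  refine (HasGSH_reverse h1).congr (fun w => ?_)
  show (w.reverse.map (fun a => (f a)⁻¹)).prod ∈ {t | t⁻¹ ∈ T} ↔ _
  rw [prod_inv_rev]
  show (((w.map f).prod)⁻¹)⁻¹ ∈ T ↔ _
  rw [inv_inv]

theorem prod_conj (c : G) (f : α → G) (w : List α) :
    (w.map (fun x => c⁻¹ * f x * c)).prod = c⁻¹ * (w.map f).prod * c := by
  induction w with
  | nil => simp
  | cons a w ih =>
    rw [List.map_cons, List.prod_cons, ih, List.map_cons, List.prod_cons]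
    simp [mul_assoc]

/-- conjugating the letters does not change the height -/
theorem gsh_of_conj (c : G) (f : α → G)
    (h : ∀ T : Set G, HasGSH 1 (fun w : List α => (w.map (fun x => c⁻¹ * f x * c)).prod ∈ T))
    (T : Set G) : HasGSH 1 (fun w : List α => (w.map f).prod ∈ T) := by
  refine (h {t | c * t * c⁻¹ ∈ T}).congr (fun w => ?_)
  show c * (w.map (fun x => c⁻¹ * f x * c)).prod * c⁻¹ ∈ T ↔ _
  rw [prod_conj]
  have e : c * (c⁻¹ * (w.map f).prod * c) * c⁻¹ = (w.map f).prod := by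
    simp [mul_assoc]
  rw [e]

theorem zp_normal (g r : G) (hgr : g * r * g⁻¹ = r ^ 2)
    (hgen : ∀ h : G, ∃ i j : ℕ, h = r ^ i * g ^ j) : (Subgroup.zpowers r).Normal := by
  constructor
  intro n hn h
  obtain ⟨z, rfl⟩ := Subgroup.mem_zpowers_iff.mp hn
  rw [← conj_zpow]
  apply Subgroup.zpow_mem
  obtain ⟨i, j, rfl⟩ := hgen h
  have h1 := gpow_r_pow g r hgr j 1
  rw [pow_one, mul_one] at h1
  have e : r ^ i * g ^ j * r * (r ^ i * g ^ j)⁻¹ = r ^ (2 ^ j) := by
    calc r ^ i * g ^ j * r * (r ^ i * g ^ j)⁻¹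
        = r ^ i * (g ^ j * r) * (g ^ j)⁻¹ * (r ^ i)⁻¹ := by simp only [mul_inv_rev, mul_assoc]
      _ = r ^ i * (r ^ (2 ^ j) * g ^ j) * (g ^ j)⁻¹ * (r ^ i)⁻¹ := by rw [h1]
      _ = r ^ i * r ^ (2 ^ j) * (r ^ i)⁻¹ := by simp only [mul_assoc, mul_inv_cancel_left]
      _ = r ^ (2 ^ j) := by
          rw [← pow_add, add_comm, pow_add, mul_assoc, mul_inv_cancel, mul_one]
  rw [e]
  exact Subgroup.pow_mem _ (Subgroup.mem_zpowers r) _

theorem fin_of_gen (g r : G) (hr : r ^ 5 = 1) (hg : g ^ 4 = 1)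
    (hgen : ∀ h : G, ∃ i j : ℕ, h = r ^ i * g ^ j) : Finite G := by
  have hs : Function.Surjective (fun p : Fin 5 × Fin 4 => r ^ (p.1 : ℕ) * g ^ (p.2 : ℕ)) := by
    intro h
    obtain ⟨i, j, rfl⟩ := hgen h
    refine ⟨(⟨i % 5, Nat.mod_lt _ (by norm_num)⟩, ⟨j % 4, Nat.mod_lt _ (by norm_num)⟩), ?_⟩
    show r ^ (i % 5) * g ^ (j % 4) = r ^ i * g ^ j
    rw [← pow_eq_pow_mod i hr, ← pow_eq_pow_mod j hg]
  exact Finite.of_surjective _ hs

theorem g3_inv (g : G) (hg : g ^ 4 = 1) : g ^ 3 = g⁻¹ := by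
  apply eq_inv_of_mul_eq_one_left
  rw [← pow_succ]
  exact hg

/-- every element lies in one of the four cosets -/
theorem level_cases (g r : G) (hg : g ^ 4 = 1) (hgen : ∀ h : G, ∃ i j : ℕ, h = r ^ i * g ^ j)
    (h : G) : ∃ i : ℕ, h = r ^ i ∨ h = r ^ i * g ∨ h = r ^ i * g ^ 2 ∨ h = r ^ i * g ^ 3 := by
  obtain ⟨i, j, rfl⟩ := hgen h
  refine ⟨i, ?_⟩
  rw [pow_eq_pow_mod j hg]
  have hj : j % 4 < 4 := Nat.mod_lt _ (by norm_num)
  obtain ⟨k, hk⟩ : ∃ k, k = j % 4 := ⟨_, rfl⟩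
  rw [← hk] at hj ⊢
  interval_cases k
  · left
    rw [pow_zero, mul_one]
  · right
    left
    rw [pow_one]
  · right
    right
    left
    rfl
  · right
    right
    right
    rfl

/-- the cosets of `1`, `g` and `g⁻¹` -/
def Lv013 (g r h : G) : Prop := ∃ i : ℕ, h = r ^ i ∨ h = r ^ i * g ∨ h = r ^ i * g ^ 3

/-- the cosets of `1` and `g ^ 2` -/
def Lv02 (g r h : G) : Prop := ∃ i : ℕ, h = r ^ i ∨ h = r ^ i * g ^ 2

theorem zp_comm (r : G) : ∀ a ∈ Subgroup.zpowers r, ∀ b ∈ Subgroup.zpowers r, a * b = b * a := by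
  intro a ha b hb
  obtain ⟨z1, rfl⟩ := Subgroup.mem_zpowers_iff.mp ha
  obtain ⟨z2, rfl⟩ := Subgroup.mem_zpowers_iff.mp hb
  exact zpow_mul_comm r z1 z2

theorem case_pm [Finite α] (g r : G) (hr : r ^ 5 = 1) (hg : g ^ 4 = 1)
    (hgr : g * r * g⁻¹ = r ^ 2) (hgen : ∀ h : G, ∃ i j : ℕ, h = r ^ i * g ^ j) (f : α → G)
    (hf : ∀ c, Lv013 g r (f c)) (T : Set G) :
    HasGSH 1 (fun w : List α => (w.map f).prod ∈ T) := by
  have hfin := fin_of_gen g r hr hg hgen
  have hN := zp_normal g r hgr hgen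
  have hmem : ∀ i : ℕ, r ^ i ∈ Subgroup.zpowers r :=
    fun i => Subgroup.pow_mem _ (Subgroup.mem_zpowers r) i
  refine coset_pm_gsh (Subgroup.zpowers r) (zp_comm r) g f (fun c => ?_) T
  obtain ⟨i, h | h | h⟩ := hf c
  · left
    rw [h]
    exact hmem i
  · right
    left
    rw [h]
    have h2 := hN.conj_mem (r ^ i) (hmem i) g⁻¹
    rw [inv_inv] at h2
    rw [← mul_assoc]
    exact h2
  · right
    right
    rw [h]
    have h2 := hN.conj_mem (r ^ i) (hmem i) g
    rw [g3_inv g hg, ← mul_assoc]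
    exact h2

theorem case_sq [Finite α] (g r : G) (hr : r ^ 5 = 1) (hg : g ^ 4 = 1)
    (hgr : g * r * g⁻¹ = r ^ 2) (hgen : ∀ h : G, ∃ i j : ℕ, h = r ^ i * g ^ j) (f : α → G)
    (hf : ∀ c, Lv02 g r (f c)) (T : Set G) :
    HasGSH 1 (fun w : List α => (w.map f).prod ∈ T) := by
  have hfin := fin_of_gen g r hr hg hgen
  have hN := zp_normal g r hgr hgen
  have hmem : ∀ i : ℕ, r ^ i ∈ Subgroup.zpowers r :=
    fun i => Subgroup.pow_mem _ (Subgroup.mem_zpowers r) i
  refine coset_pm_gsh (Subgroup.zpowers r) (zp_comm r) (g ^ 2) f (fun c => ?_) T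
  obtain ⟨i, h | h⟩ := hf c
  · left
    rw [h]
    exact hmem i
  · right
    left
    rw [h]
    have h2 := hN.conj_mem (r ^ i) (hmem i) (g ^ 2)⁻¹
    rw [inv_inv] at h2
    rw [← mul_assoc]
    exact h2

theorem pow5 (r : G) (hr : r ^ 5 = 1) (m : ℕ) : (r ^ m) ^ 5 = 1 := by
  rw [← pow_mul, mul_comm, pow_mul, hr, one_pow]

theorem conj_sq (g r : G) (hgr : g * r * g⁻¹ = r ^ 2) (m : ℕ) :
    g * r ^ m * g⁻¹ = (r ^ m) ^ 2 := by
  rw [g_r_pow g r hgr m, mul_assoc, mul_inv_cancel, mul_one, ← pow_mul, mul_comm]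

/-- one letter in the coset of `g`, one in the coset of `g ^ 2` -/
theorem case_12 [Finite α] (g r : G) (hr : r ^ 5 = 1) (hg : g ^ 4 = 1)
    (hgr : g * r * g⁻¹ = r ^ 2) (i1 i2 : ℕ) (f : α → G)
    (hf : ∀ c, f c = 1 ∨ f c = r ^ i1 * g ∨ f c = r ^ i2 * g ^ 2) (T : Set G) :
    HasGSH 1 (fun w : List α => (w.map f).prod ∈ T) := by
  have hcinv : (r ^ (4 * i1))⁻¹ = r ^ i1 := by
    apply inv_eq_of_mul_eq_one_right
    have e : 4 * i1 + i1 = 5 * i1 := by ring
    rw [← pow_add, e, pow_mul, hr, one_pow]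
  have e1 : (r ^ (4 * i1))⁻¹ * (r ^ i1 * g) * r ^ (4 * i1) = g := by
    have e : i1 + i1 + 2 * (4 * i1) = 5 * (2 * i1) := by ring
    rw [hcinv]
    calc r ^ i1 * (r ^ i1 * g) * r ^ (4 * i1)
        = r ^ i1 * r ^ i1 * (g * r ^ (4 * i1)) := by simp only [mul_assoc]
      _ = r ^ i1 * r ^ i1 * (r ^ (2 * (4 * i1)) * g) := by rw [g_r_pow g r hgr]
      _ = r ^ (i1 + i1 + 2 * (4 * i1)) * g := by simp only [pow_add, mul_assoc]
      _ = g := by rw [e, pow_mul, hr, one_pow, one_mul]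
  have e2 : (r ^ (4 * i1))⁻¹ * (r ^ i2 * g ^ 2) * r ^ (4 * i1)
      = r ^ (i1 + i2 + 2 ^ 2 * (4 * i1)) * g ^ 2 := by
    rw [hcinv]
    calc r ^ i1 * (r ^ i2 * g ^ 2) * r ^ (4 * i1)
        = r ^ i1 * r ^ i2 * (g ^ 2 * r ^ (4 * i1)) := by simp only [mul_assoc]
      _ = r ^ i1 * r ^ i2 * (r ^ (2 ^ 2 * (4 * i1)) * g ^ 2) := by rw [gpow_r_pow g r hgr]
      _ = r ^ (i1 + i2 + 2 ^ 2 * (4 * i1)) * g ^ 2 := by simp only [pow_add, mul_assoc]
  refine gsh_of_conj (r ^ (4 * i1)) f (fun T' => ?_) T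
  refine gsh_group g (r ^ (i1 + i2 + 2 ^ 2 * (4 * i1))) (pow5 r hr _) hg (conj_sq g r hgr _) _
    (fun x => ?_) T'
  rcases hf x with h | h | h
  · left
    rw [h, mul_one, inv_mul_cancel]
  · right
    left
    rw [h]
    exact e1
  · right
    right
    rw [h]
    exact e2

/-- one letter in the coset of `g⁻¹`, one in the coset of `g ^ 2` -/
theorem case_32 [Finite α] (g r : G) (hr : r ^ 5 = 1) (hg : g ^ 4 = 1)
    (hgr : g * r * g⁻¹ = r ^ 2) (i1 i2 : ℕ) (f : α → G)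
    (hf : ∀ c, f c = 1 ∨ f c = r ^ i1 * g ^ 3 ∨ f c = r ^ i2 * g ^ 2) (T : Set G) :
    HasGSH 1 (fun w : List α => (w.map f).prod ∈ T) := by
  have hcinv : (r ^ (2 * i1))⁻¹ = r ^ (3 * i1) := by
    apply inv_eq_of_mul_eq_one_right
    have e : 2 * i1 + 3 * i1 = 5 * i1 := by ring
    rw [← pow_add, e, pow_mul, hr, one_pow]
  have e1 : (r ^ (2 * i1))⁻¹ * (r ^ i1 * g ^ 3) * r ^ (2 * i1) = g⁻¹ := by
    have e : 3 * i1 + i1 + 2 ^ 3 * (2 * i1) = 5 * (4 * i1) := by ring
    rw [hcinv]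
    calc r ^ (3 * i1) * (r ^ i1 * g ^ 3) * r ^ (2 * i1)
        = r ^ (3 * i1) * r ^ i1 * (g ^ 3 * r ^ (2 * i1)) := by simp only [mul_assoc]
      _ = r ^ (3 * i1) * r ^ i1 * (r ^ (2 ^ 3 * (2 * i1)) * g ^ 3) := by
          rw [gpow_r_pow g r hgr]
      _ = r ^ (3 * i1 + i1 + 2 ^ 3 * (2 * i1)) * g ^ 3 := by simp only [pow_add, mul_assoc]
      _ = g⁻¹ := by rw [e, pow_mul, hr, one_pow, one_mul, g3_inv g hg]
  have e2 : (r ^ (2 * i1))⁻¹ * (r ^ i2 * g ^ 2) * r ^ (2 * i1)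
      = r ^ (3 * i1 + i2 + 2 ^ 2 * (2 * i1)) * g ^ 2 := by
    rw [hcinv]
    calc r ^ (3 * i1) * (r ^ i2 * g ^ 2) * r ^ (2 * i1)
        = r ^ (3 * i1) * r ^ i2 * (g ^ 2 * r ^ (2 * i1)) := by simp only [mul_assoc]
      _ = r ^ (3 * i1) * r ^ i2 * (r ^ (2 ^ 2 * (2 * i1)) * g ^ 2) := by
          rw [gpow_r_pow g r hgr]
      _ = r ^ (3 * i1 + i2 + 2 ^ 2 * (2 * i1)) * g ^ 2 := by simp only [pow_add, mul_assoc]
  refine gsh_of_conj (r ^ (2 * i1)) f (fun T' => ?_) T
  refine gsh_group_inv g (r ^ (3 * i1 + i2 + 2 ^ 2 * (2 * i1))) (pow5 r hr _) hg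
    (conj_sq g r hgr _) _ (fun x => ?_) T'
  rcases hf x with h | h | h
  · left
    rw [h, mul_one, inv_mul_cancel]
  · right
    left
    rw [h]
    exact e1
  · right
    right
    rw [h]
    exact e2

/-- **Two-letter alphabets into the group of order 20.**  Let `G` be a group all of whose
elements have the form `r ^ i * g ^ j`, where `r ^ 5 = 1`, `g ^ 4 = 1` and
`g * r * g⁻¹ = r ^ 2`.  If every letter is mapped to `1`, to `a` or to `b`, for two arbitrary
elements `a`, `b` of `G`, then every language recognised by this map has generalized star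
height at most one. -/
theorem gsh_f20_two [Finite α] (g r : G) (hr : r ^ 5 = 1) (hg : g ^ 4 = 1)
    (hgr : g * r * g⁻¹ = r ^ 2) (hgen : ∀ h : G, ∃ i j : ℕ, h = r ^ i * g ^ j)
    (a b : G) (f : α → G) (hf : ∀ c, f c = 1 ∨ f c = a ∨ f c = b) (T : Set G) :
    HasGSH 1 (fun w : List α => (w.map f).prod ∈ T) := by
  obtain ⟨i1, ha⟩ := level_cases g r hg hgen a
  obtain ⟨i2, hb⟩ := level_cases g r hg hgen b
  have o13 : Lv013 g r 1 := ⟨0, Or.inl (by rw [pow_zero])⟩
  have o02 : Lv02 g r 1 := ⟨0, Or.inl (by rw [pow_zero])⟩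
  have pm : Lv013 g r a → Lv013 g r b → HasGSH 1 (fun w : List α => (w.map f).prod ∈ T) := by
    intro pa pb
    refine case_pm g r hr hg hgr hgen f (fun c => ?_) T
    rcases hf c with h | h | h
    · rw [h]
      exact o13
    · rw [h]
      exact pa
    · rw [h]
      exact pb
  have sq : Lv02 g r a → Lv02 g r b → HasGSH 1 (fun w : List α => (w.map f).prod ∈ T) := by
    intro pa pb
    refine case_sq g r hr hg hgr hgen f (fun c => ?_) T
    rcases hf c with h | h | h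
    · rw [h]
      exact o02
    · rw [h]
      exact pa
    · rw [h]
      exact pb
  rcases ha with ha | ha | ha | ha <;> rcases hb with hb | hb | hb | hb
  · exact pm ⟨i1, Or.inl ha⟩ ⟨i2, Or.inl hb⟩
  · exact pm ⟨i1, Or.inl ha⟩ ⟨i2, Or.inr (Or.inl hb)⟩
  · exact sq ⟨i1, Or.inl ha⟩ ⟨i2, Or.inr hb⟩
  · exact pm ⟨i1, Or.inl ha⟩ ⟨i2, Or.inr (Or.inr hb)⟩
  · exact pm ⟨i1, Or.inr (Or.inl ha)⟩ ⟨i2, Or.inl hb⟩
  · exact pm ⟨i1, Or.inr (Or.inl ha)⟩ ⟨i2, Or.inr (Or.inl hb)⟩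
  · subst ha
    subst hb
    exact case_12 g r hr hg hgr i1 i2 f hf T
  · exact pm ⟨i1, Or.inr (Or.inl ha)⟩ ⟨i2, Or.inr (Or.inr hb)⟩
  · exact sq ⟨i1, Or.inr ha⟩ ⟨i2, Or.inl hb⟩
  · subst ha
    subst hb
    refine case_12 g r hr hg hgr i2 i1 f (fun c => ?_) T
    rcases hf c with h | h | h
    · exact Or.inl h
    · exact Or.inr (Or.inr h)
    · exact Or.inr (Or.inl h)
  · exact sq ⟨i1, Or.inr ha⟩ ⟨i2, Or.inr hb⟩
  · subst ha
    subst hb
    refine case_32 g r hr hg hgr i2 i1 f (fun c => ?_) T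
    rcases hf c with h | h | h
    · exact Or.inl h
    · exact Or.inr (Or.inr h)
    · exact Or.inr (Or.inl h)
  · exact pm ⟨i1, Or.inr (Or.inr ha)⟩ ⟨i2, Or.inl hb⟩
  · exact pm ⟨i1, Or.inr (Or.inr ha)⟩ ⟨i2, Or.inr (Or.inl hb)⟩
  · subst ha
    subst hb
    exact case_32 g r hr hg hgr i1 i2 f hf T
  · exact pm ⟨i1, Or.inr (Or.inr ha)⟩ ⟨i2, Or.inr (Or.inr hb)⟩

end two

end Vale.Agent.Helper15.F20
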