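import Vale.Agent.Helper15.F20Data4
import Vale.Agent.Helper15.F20Two

/-!
# Three-letter alphabets into the group of order 20, one letter in each nontrivial coset

`gsh_f20_three`: let `G` be a group with elements `g`, `r` such that `r ^ 5 = 1`, `g ^ 4 = 1`
and `g * r * g⁻¹ = r ^ 2`.  If every letter is mapped to `1` or to one of three elements
`r ^ i1 * g`, `r ^ i2 * g ^ 2`, `r ^ i3 * g ^ 3` (arbitrary exponents `i1`, `i2`, `i3`), then
every language recognised by this map has generalized star height at most one.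

Elements are written in coordinates (a, T) (multiplier and translation part).  The proof has
three steps:
* the family of letters `g`, `r * g ^ 2`, `r * g ^ 3` is handled by the two accumulator
  automata with four letter kinds (`gsh_coords4`);
* the mirror family `r ^ 3 * g`, `r * g ^ 2`, `g ^ 3` is obtained by reading words backwards
  (`gsh_mirror`);
* the translation part for arbitrary exponents is a fixed combination of the translation
  parts of these two families and of the multiplier (`invI_run`).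
-/

namespace Vale.Agent.Helper15.F20

open Vale.Agent.Helper10

/-- right multiplication by the four letter kinds with translation parameters `i`, in the
coordinates (a, T) -/
def stepI (i : ZMod 5 × ZMod 5 × ZMod 5) (p : ZMod 5 × ZMod 5) : LK4 → ZMod 5 × ZMod 5
  | LK4.idl => p
  | LK4.up => (2 * p.1, p.2 - i.1 * p.1)
  | LK4.refl => (-p.1, p.2 - i.2.1 * p.1)
  | LK4.dn => (3 * p.1, p.2 - i.2.2 * p.1)

/-- multiplier, the two parts of the translation part, and the phase (four letter kinds) -/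
def statStep4 (s : ZMod 5 × ZMod 5 × ZMod 5 × Bool) : LK4 → ZMod 5 × ZMod 5 × ZMod 5 × Bool
  | LK4.idl => s
  | LK4.up => (2 * s.1, s.2.1, s.2.2.1, false)
  | LK4.refl =>
    if s.2.2.2 = true then (-s.1, s.2.1, s.2.2.1 - s.1, false)
    else (-s.1, s.2.1 - s.1, s.2.2.1, true)
  | LK4.dn => (3 * s.1, s.2.1 - s.1, s.2.2.1, false)

theorem inv_step4 (c0 c1 x : ZMod 5) (q : ZMod 5 × Bool)
    (s : ZMod 5 × ZMod 5 × ZMod 5 × Bool) (k : LK4) (h : Inv c0 c1 x q s) :
    Inv c0 c1 x (stepC4 c0 c1 q k) (statStep4 s k) := by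
  obtain ⟨t, p⟩ := q
  obtain ⟨a, S0, S1, p'⟩ := s
  obtain ⟨h1, h2⟩ := h
  simp only at h1 h2
  subst h1
  cases k with
  | idl => exact ⟨rfl, h2⟩
  | up =>
    refine ⟨rfl, ?_⟩
    show 3 * t * (2 * a) = x + c0 * S0 + c1 * S1
    linear_combination h2 + t * a * five_zero
  | refl =>
    cases p with
    | true =>
      refine ⟨rfl, ?_⟩
      show (c1 - t) * (-a) = x + c0 * S0 + c1 * (S1 - a)
      linear_combination h2
    | false =>
      refine ⟨rfl, ?_⟩
      show (c0 - t) * (-a) = x + c0 * (S0 - a) + c1 * S1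
      linear_combination h2
  | dn =>
    refine ⟨rfl, ?_⟩
    show (2 * t + 3 * c0) * (3 * a) = x + c0 * (S0 - a) + c1 * S1
    linear_combination h2 + (t * a + 2 * c0 * a) * five_zero

theorem inv_run4 (c0 c1 x : ZMod 5) : ∀ (w : List LK4) (q : ZMod 5 × Bool)
    (s : ZMod 5 × ZMod 5 × ZMod 5 × Bool), Inv c0 c1 x q s →
    Inv c0 c1 x (run (stepC4 c0 c1) q w) (run statStep4 s w) := by
  intro w
  induction w with
  | nil => intro q s h; exact h
  | cons k w ih =>
    intro q s h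
    rw [run_cons, run_cons]
    exact ih _ _ (inv_step4 c0 c1 x q s k h)

theorem grp_run4 : ∀ (w : List LK4) (s : ZMod 5 × ZMod 5 × ZMod 5 × Bool),
    run (stepI (0, 1, 1)) (s.1, s.2.1 + s.2.2.1) w
      = ((run statStep4 s w).1, (run statStep4 s w).2.1 + (run statStep4 s w).2.2.1) := by
  intro w
  induction w with
  | nil => intro s; rfl
  | cons k w ih =>
    intro s
    rw [run_cons, run_cons]
    have e : stepI (0, 1, 1) (s.1, s.2.1 + s.2.2.1) k
        = ((statStep4 s k).1, (statStep4 s k).2.1 + (statStep4 s k).2.2.1) := by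
      obtain ⟨a, S0, S1, p⟩ := s
      cases k with
      | idl => rfl
      | up =>
        show (2 * a, S0 + S1 - 0 * a) = (2 * a, S0 + S1)
        rw [zero_mul, sub_zero]
      | refl =>
        cases p with
        | true =>
          show (-a, S0 + S1 - 1 * a) = (-a, S0 + (S1 - a))
          rw [one_mul, add_sub_assoc]
        | false =>
          show (-a, S0 + S1 - 1 * a) = (-a, S0 - a + S1)
          rw [one_mul, sub_add_eq_add_sub]
      | dn =>
        show (3 * a, S0 + S1 - 1 * a) = (3 * a, S0 - a + S1)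
        rw [one_mul, sub_add_eq_add_sub]
    rw [e]
    exact ih _

/-- the coordinates (a, T) of a word are determined by three runs of the two automata -/
theorem grp_recov4 (w : List LK4) :
    run (stepI (0, 1, 1)) (1, 0) w
      = recov (run (stepC4 1 0) (0, false) w).1 (run (stepC4 1 0) (1, false) w).1
          (run (stepC4 1 4) (0, false) w).1 := by
  have e := grp_run4 w (1, 0, 0, false)
  have e' : ((1 : ZMod 5), (0 : ZMod 5) + 0) = (1, 0) := by rw [add_zero]
  rw [e'] at e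
  rw [e]
  have hB0 := inv_run4 1 0 0 w (0, false) (1, 0, 0, false) ⟨rfl, by simp⟩
  have hB1 := inv_run4 1 0 1 w (1, false) (1, 0, 0, false) ⟨rfl, by simp⟩
  have hA0 := inv_run4 1 4 0 w (0, false) (1, 0, 0, false) ⟨rfl, by simp⟩
  exact (recov_spec _ _ _ _ _ _ hB0.2 hB1.2 hA0.2).symm

variable {α : Type}

theorem cf_kind4 (c0 c1 : ZMod 5) (q0 : ZMod 5 × Bool) (kind : α → LK4)
    (h : CounterFree (absorb (stepC4 c0 c1) q0)) :
    CounterFree (absorb (fun q a => stepC4 c0 c1 q (kind a)) q0) := by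
  have e : ∀ (w : List α) (x : ZMod 5 × Bool),
      run (absorb (fun q a => stepC4 c0 c1 q (kind a)) q0) x w
        = run (absorb (stepC4 c0 c1) q0) x (w.map kind) := by
    intro w x
    rw [run_map]
    rfl
  intro w q n hn hq
  have e2 : (fun x => run (absorb (fun q a => stepC4 c0 c1 q (kind a)) q0) x w)
      = (fun x => run (absorb (stepC4 c0 c1) q0) x (w.map kind)) := funext (e w)
  rw [e2] at hq
  rw [e]
  exact h (w.map kind) q n hn hq

/-- Every language recognised through the coordinates (a, T) of the family of letters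
`g`, `r * g ^ 2`, `r * g ^ 3` has generalized star height at most one. -/
theorem gsh_coords4 [Finite α] (kind : α → LK4) (S : Set (ZMod 5 × ZMod 5)) :
    HasGSH 1 (fun w : List α => run (stepI (0, 1, 1)) (1, 0) (w.map kind) ∈ S) := by
  have hB := fun p q => one_base (fun q a => stepC4 1 0 q (kind a)) (1, false)
    (cf_kind4 1 0 (1, false) kind cfB4) p q
  have hA := fun p q => one_base (fun q a => stepC4 1 4 q (kind a)) (3, false)
    (cf_kind4 1 4 (3, false) kind cfA4) p q
  have h1 : HasGSH 1 (fun w : List α => ∃ u0 u1 v0 : ZMod 5 × Bool,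
      (run (fun q a => stepC4 1 0 q (kind a)) (0, false) w = u0 ∧
        run (fun q a => stepC4 1 0 q (kind a)) (1, false) w = u1) ∧
      run (fun q a => stepC4 1 4 q (kind a)) (0, false) w = v0 ∧
        recov u0.1 u1.1 v0.1 ∈ S) :=
    HasGSH.exists_ _ (fun u0 => HasGSH.exists_ _ (fun u1 => HasGSH.exists_ _ (fun v0 =>
      ((hB _ u0).and (hB _ u1)).and ((hA _ v0).and (HasGSH.const 1 _)))))
  refine h1.congr (fun w => ?_)
  rw [grp_recov4, run_map, run_map, run_map]
  constructor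
  · rintro ⟨u0, u1, v0, ⟨rfl, rfl⟩, rfl, h⟩
    exact h
  · intro h
    exact ⟨_, _, _, ⟨rfl, rfl⟩, rfl, h⟩

/-! ### The mirror family -/

/-- multiplication in the coordinates (a, T) -/
def mulc (p q : ZMod 5 × ZMod 5) : ZMod 5 × ZMod 5 := (p.1 * q.1, p.2 + p.1 * q.2)

/-- inversion in the coordinates (a, T) (for a nonzero multiplier) -/
def invc (p : ZMod 5 × ZMod 5) : ZMod 5 × ZMod 5 := (p.1 ^ 3, -(p.2 * p.1 ^ 3))

/-- exchange of the kinds `up` and `dn` -/
def swp : LK4 → LK4
  | LK4.idl => LK4.idl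
  | LK4.up => LK4.dn
  | LK4.refl => LK4.refl
  | LK4.dn => LK4.up

theorem stepI_mulc (i : ZMod 5 × ZMod 5 × ZMod 5) (p : ZMod 5 × ZMod 5) (k : LK4) :
    stepI i p k = mulc p (stepI i (1, 0) k) := by
  obtain ⟨a, T⟩ := p
  cases k with
  | idl =>
    show (a, T) = (a * 1, T + a * 0)
    rw [mul_one, mul_zero, add_zero]
  | up =>
    show (2 * a, T - i.1 * a) = (a * (2 * 1), T + a * (0 - i.1 * 1))
    rw [Prod.mk.injEq]
    constructor <;> ring
  | refl =>
    show (-a, T - i.2.1 * a) = (a * (-1), T + a * (0 - i.2.1 * 1))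
    rw [Prod.mk.injEq]
    constructor <;> ring
  | dn =>
    show (3 * a, T - i.2.2 * a) = (a * (3 * 1), T + a * (0 - i.2.2 * 1))
    rw [Prod.mk.injEq]
    constructor <;> ring

theorem mulc_assoc (p q s : ZMod 5 × ZMod 5) : mulc (mulc p q) s = mulc p (mulc q s) := by
  obtain ⟨a, T⟩ := p
  obtain ⟨b, U⟩ := q
  obtain ⟨c, V⟩ := s
  show (a * b * c, T + a * U + a * b * V) = (a * (b * c), T + a * (U + b * V))
  rw [Prod.mk.injEq]
  constructor <;> ring

theorem mulc_one (p : ZMod 5 × ZMod 5) : mulc p (1, 0) = p := by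
  obtain ⟨a, T⟩ := p
  show (a * 1, T + a * 0) = (a, T)
  rw [mul_one, mul_zero, add_zero]

theorem run_mulc (i : ZMod 5 × ZMod 5 × ZMod 5) : ∀ (w : List LK4) (p : ZMod 5 × ZMod 5),
    run (stepI i) p w = mulc p (run (stepI i) (1, 0) w) := by
  intro w
  induction w with
  | nil =>
    intro p
    rw [run_nil, run_nil, mulc_one]
  | cons k w ih =>
    intro p
    rw [run_cons, run_cons, ih (stepI i p k), ih (stepI i (1, 0) k), stepI_mulc i p k,
      mulc_assoc]

theorem pow_four : ∀ a : ZMod 5, a ≠ 0 → a ^ 4 = 1 := by decide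

theorem invc_mulc (p q : ZMod 5 × ZMod 5) (hp : p.1 ≠ 0) :
    invc (mulc p q) = mulc (invc q) (invc p) := by
  obtain ⟨a, T⟩ := p
  obtain ⟨b, U⟩ := q
  simp only at hp
  have h4 := pow_four a hp
  show ((a * b) ^ 3, -((T + a * U) * (a * b) ^ 3))
    = (b ^ 3 * a ^ 3, -(U * b ^ 3) + b ^ 3 * -(T * a ^ 3))
  rw [Prod.mk.injEq]
  constructor
  · ring
  · linear_combination (-(U * b ^ 3)) * h4

theorem ne_step : ∀ a : ZMod 5, a ≠ 0 → 2 * a ≠ 0 ∧ -a ≠ 0 ∧ 3 * a ≠ 0 := by decide

theorem run_ne (i : ZMod 5 × ZMod 5 × ZMod 5) : ∀ (w : List LK4) (p : ZMod 5 × ZMod 5),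
    p.1 ≠ 0 → (run (stepI i) p w).1 ≠ 0 := by
  intro w
  induction w with
  | nil => intro p hp; exact hp
  | cons k w ih =>
    intro p hp
    rw [run_cons]
    apply ih
    obtain ⟨a, T⟩ := p
    simp only at hp
    cases k with
    | idl => exact hp
    | up => exact (ne_step a hp).1
    | refl => exact (ne_step a hp).2.1
    | dn => exact (ne_step a hp).2.2

theorem mirror_letter : ∀ k : LK4,
    stepI (3, 1, 0) (1, 0) k = invc (stepI (0, 1, 1) (1, 0) (swp k)) := by
  intro k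
  cases k <;> decide

theorem one_ne : ((1 : ZMod 5), (0 : ZMod 5)).1 ≠ 0 := by decide

theorem mirror_run : ∀ w : List LK4,
    run (stepI (3, 1, 0)) (1, 0) w
      = invc (run (stepI (0, 1, 1)) (1, 0) ((w.map swp).reverse)) := by
  intro w
  induction w with
  | nil => decide
  | cons k w ih =>
    rw [run_cons, run_mulc (3, 1, 0) w, ih, mirror_letter k, List.map_cons, List.reverse_cons,
      run_append, run_cons, run_nil, stepI_mulc (0, 1, 1) (run (stepI (0, 1, 1)) (1, 0) _),
      invc_mulc _ _ (run_ne (0, 1, 1) _ (1, 0) one_ne)]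

/-- Every language recognised through the coordinates (a, T) of the mirror family of letters
`r ^ 3 * g`, `r * g ^ 2`, `g ^ 3` has generalized star height at most one. -/
theorem gsh_mirror [Finite α] (kind : α → LK4) (S : Set (ZMod 5 × ZMod 5)) :
    HasGSH 1 (fun w : List α => run (stepI (3, 1, 0)) (1, 0) (w.map kind) ∈ S) := by
  have h1 := HasGSH_reverse (gsh_coords4 (fun a => swp (kind a)) {p | invc p ∈ S})
  refine h1.congr (fun w => ?_)
  have e : ((w.map kind).map swp).reverse = w.reverse.map (fun a => swp (kind a)) := by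
    rw [List.map_map, List.map_reverse]
    rfl
  rw [mirror_run, e]
  exact Iff.rfl

/-! ### Arbitrary translation parameters -/

/-- the invariant linking the coordinates for the parameters `i` with those of the two
special families -/
def InvI (i : ZMod 5 × ZMod 5 × ZMod 5) (pI pF pM : ZMod 5 × ZMod 5) : Prop :=
  pF.1 = pI.1 ∧ pM.1 = pI.1 ∧
    pI.2 = (i.2.2 - 2 * (i.2.2 + 2 * i.1 - i.2.1)) * pF.2
      + 2 * (i.1 - (i.2.2 + 2 * i.1 - i.2.1)) * pM.2
      + (i.2.2 + 2 * i.1 - i.2.1) * (1 - pI.1)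

theorem invI_step (i : ZMod 5 × ZMod 5 × ZMod 5) (pI pF pM : ZMod 5 × ZMod 5) (k : LK4)
    (h : InvI i pI pF pM) :
    InvI i (stepI i pI k) (stepI (0, 1, 1) pF k) (stepI (3, 1, 0) pM k) := by
  obtain ⟨i1, i2, i3⟩ := i
  obtain ⟨a, T⟩ := pI
  obtain ⟨aF, TF⟩ := pF
  obtain ⟨aM, TM⟩ := pM
  obtain ⟨h1, h2, h3⟩ := h
  simp only at h1 h2 h3
  subst h1
  subst h2
  cases k with
  | idl => exact ⟨rfl, rfl, h3⟩
  | up =>
    refine ⟨rfl, rfl, ?_⟩
    show T - i1 * aM = (i3 - 2 * (i3 + 2 * i1 - i2)) * (TF - 0 * aM)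
      + 2 * (i1 - (i3 + 2 * i1 - i2)) * (TM - 3 * aM)
      + (i3 + 2 * i1 - i2) * (1 - 2 * aM)
    linear_combination h3 + aM * (i1 - (i3 + 2 * i1 - i2)) * five_zero
  | refl =>
    refine ⟨rfl, rfl, ?_⟩
    show T - i2 * aM = (i3 - 2 * (i3 + 2 * i1 - i2)) * (TF - 1 * aM)
      + 2 * (i1 - (i3 + 2 * i1 - i2)) * (TM - 1 * aM)
      + (i3 + 2 * i1 - i2) * (1 - -aM)
    linear_combination h3 - (i3 + 2 * i1 - i2) * aM * five_zero
  | dn =>
    refine ⟨rfl, rfl, ?_⟩
    show T - i3 * aM = (i3 - 2 * (i3 + 2 * i1 - i2)) * (TF - 1 * aM)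
      + 2 * (i1 - (i3 + 2 * i1 - i2)) * (TM - 0 * aM)
      + (i3 + 2 * i1 - i2) * (1 - 3 * aM)
    linear_combination h3

theorem invI_run (i : ZMod 5 × ZMod 5 × ZMod 5) :
    ∀ (w : List LK4) (pI pF pM : ZMod 5 × ZMod 5), InvI i pI pF pM →
    InvI i (run (stepI i) pI w) (run (stepI (0, 1, 1)) pF w) (run (stepI (3, 1, 0)) pM w) := by
  intro w
  induction w with
  | nil => intro pI pF pM h; exact h
  | cons k w ih =>
    intro pI pF pM h
    rw [run_cons, run_cons, run_cons]
    exact ih _ _ _ (invI_step i pI pF pM k h)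

/-- the coordinates for the parameters `i` from those of the two special families -/
def comb (i : ZMod 5 × ZMod 5 × ZMod 5) (pF pM : ZMod 5 × ZMod 5) : ZMod 5 × ZMod 5 :=
  (pF.1, (i.2.2 - 2 * (i.2.2 + 2 * i.1 - i.2.1)) * pF.2
      + 2 * (i.1 - (i.2.2 + 2 * i.1 - i.2.1)) * pM.2
      + (i.2.2 + 2 * i.1 - i.2.1) * (1 - pF.1))

theorem comb_run (i : ZMod 5 × ZMod 5 × ZMod 5) (w : List LK4) :
    run (stepI i) (1, 0) w
      = comb i (run (stepI (0, 1, 1)) (1, 0) w) (run (stepI (3, 1, 0)) (1, 0) w) := by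
  have h0 : InvI i (1, 0) (1, 0) (1, 0) := by
    refine ⟨rfl, rfl, ?_⟩
    show (0 : ZMod 5) = (i.2.2 - 2 * (i.2.2 + 2 * i.1 - i.2.1)) * 0
      + 2 * (i.1 - (i.2.2 + 2 * i.1 - i.2.1)) * 0 + (i.2.2 + 2 * i.1 - i.2.1) * (1 - 1)
    ring
  obtain ⟨h1, h2, h3⟩ := invI_run i w (1, 0) (1, 0) (1, 0) h0
  refine Prod.ext h1.symm ?_
  show (run (stepI i) (1, 0) w).2 = _
  rw [h3, ← h1]
  rfl

/-- Every language recognised through the coordinates (a, T) of letters with arbitrary
translation parameters has generalized star height at most one. -/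
theorem gsh_stepI [Finite α] (i : ZMod 5 × ZMod 5 × ZMod 5) (kind : α → LK4)
    (S : Set (ZMod 5 × ZMod 5)) :
    HasGSH 1 (fun w : List α => run (stepI i) (1, 0) (w.map kind) ∈ S) := by
  have hF : ∀ pF : ZMod 5 × ZMod 5,
      HasGSH 1 (fun w : List α => run (stepI (0, 1, 1)) (1, 0) (w.map kind) = pF) :=
    fun pF => (gsh_coords4 kind {pF}).congr (fun _ => Set.mem_singleton_iff)
  have hM : ∀ pM : ZMod 5 × ZMod 5,
      HasGSH 1 (fun w : List α => run (stepI (3, 1, 0)) (1, 0) (w.map kind) = pM) :=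
    fun pM => (gsh_mirror kind {pM}).congr (fun _ => Set.mem_singleton_iff)
  have h1 : HasGSH 1 (fun w : List α => ∃ pF pM : ZMod 5 × ZMod 5,
      (run (stepI (0, 1, 1)) (1, 0) (w.map kind) = pF ∧
        run (stepI (3, 1, 0)) (1, 0) (w.map kind) = pM) ∧ comb i pF pM ∈ S) :=
    HasGSH.exists_ _ (fun pF => HasGSH.exists_ _ (fun pM =>
      ((hF pF).and (hM pM)).and (HasGSH.const 1 _)))
  refine h1.congr (fun w => ?_)
  rw [comb_run i (w.map kind)]
  constructor
  · rintro ⟨pF, pM, ⟨rfl, rfl⟩, h⟩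
    exact h
  · intro h
    exact ⟨_, _, ⟨rfl, rfl⟩, h⟩

/-! ### The abstract group -/

section group

variable {G : Type} [Group G]

/-- the group element of a letter kind with translation parameters `i` -/
def valI (g r : G) (i : ZMod 5 × ZMod 5 × ZMod 5) : LK4 → G
  | LK4.idl => 1
  | LK4.up => r ^ i.1.val * g
  | LK4.refl => r ^ i.2.1.val * g ^ 2
  | LK4.dn => r ^ i.2.2.val * g ^ 3

theorem dlog_dn : ∀ a : ZMod 5, a ≠ 0 → dlog (3 * a) % 4 = (dlog a + 3) % 4 := by decide

theorem exp_gen : ∀ a b i : ZMod 5, a ≠ 0 →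
    ((-b).val + 2 ^ dlog a * i.val) % 5 = (-(b - i * a)).val % 5 := by decide

theorem elt_stepI (g r : G) (hr : r ^ 5 = 1) (hg : g ^ 4 = 1) (hgr : g * r * g⁻¹ = r ^ 2)
    (i : ZMod 5 × ZMod 5 × ZMod 5) (p : ZMod 5 × ZMod 5) (hp : p.1 ≠ 0) (k : LK4) :
    elt g r p * valI g r i k = elt g r (stepI i p k) := by
  obtain ⟨a, b⟩ := p
  simp only at hp
  cases k with
  | idl => exact mul_one _
  | up =>
    show r ^ (-b).val * g ^ dlog a * (r ^ i.1.val * g)
      = r ^ (-(b - i.1 * a)).val * g ^ dlog (2 * a)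
    rw [mul_assoc, ← mul_assoc (g ^ dlog a), gpow_r_pow g r hgr, mul_assoc, ← pow_succ,
      ← mul_assoc, ← pow_add, pow_eq_pow_mod ((-b).val + 2 ^ dlog a * i.1.val) hr,
      pow_eq_pow_mod (-(b - i.1 * a)).val hr, exp_gen a b i.1 hp,
      pow_eq_pow_mod (dlog a + 1) hg, pow_eq_pow_mod (dlog (2 * a)) hg, dlog_up a hp]
  | refl =>
    show r ^ (-b).val * g ^ dlog a * (r ^ i.2.1.val * g ^ 2)
      = r ^ (-(b - i.2.1 * a)).val * g ^ dlog (-a)
    rw [mul_assoc, ← mul_assoc (g ^ dlog a), gpow_r_pow g r hgr, mul_assoc, ← pow_add,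
      ← mul_assoc, ← pow_add, pow_eq_pow_mod ((-b).val + 2 ^ dlog a * i.2.1.val) hr,
      pow_eq_pow_mod (-(b - i.2.1 * a)).val hr, exp_gen a b i.2.1 hp,
      pow_eq_pow_mod (dlog a + 2) hg, pow_eq_pow_mod (dlog (-a)) hg, dlog_refl a hp]
  | dn =>
    show r ^ (-b).val * g ^ dlog a * (r ^ i.2.2.val * g ^ 3)
      = r ^ (-(b - i.2.2 * a)).val * g ^ dlog (3 * a)
    rw [mul_assoc, ← mul_assoc (g ^ dlog a), gpow_r_pow g r hgr, mul_assoc, ← pow_add,
      ← mul_assoc, ← pow_add, pow_eq_pow_mod ((-b).val + 2 ^ dlog a * i.2.2.val) hr,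
      pow_eq_pow_mod (-(b - i.2.2 * a)).val hr, exp_gen a b i.2.2 hp,
      pow_eq_pow_mod (dlog a + 3) hg, pow_eq_pow_mod (dlog (3 * a)) hg, dlog_dn a hp]

theorem elt_runI (g r : G) (hr : r ^ 5 = 1) (hg : g ^ 4 = 1) (hgr : g * r * g⁻¹ = r ^ 2)
    (i : ZMod 5 × ZMod 5 × ZMod 5) :
    ∀ (w : List LK4) (p : ZMod 5 × ZMod 5), p.1 ≠ 0 →
      elt g r p * (w.map (valI g r i)).prod = elt g r (run (stepI i) p w) := by
  intro w
  induction w with
  | nil => intro p _; simp
  | cons k w ih =>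
    intro p hp
    rw [List.map_cons, List.prod_cons, ← mul_assoc, elt_stepI g r hr hg hgr i p hp k, run_cons]
    apply ih
    obtain ⟨a, b⟩ := p
    simp only at hp
    cases k with
    | idl => exact hp
    | up => exact (ne_step a hp).1
    | refl => exact (ne_step a hp).2.1
    | dn => exact (ne_step a hp).2.2

theorem pow_cast (r : G) (hr : r ^ 5 = 1) (n : ℕ) : r ^ ((n : ZMod 5)).val = r ^ n := by
  rw [ZMod.val_natCast, ← pow_eq_pow_mod n hr]

/-- Let `G` be a group with elements `g`, `r` such that `r ^ 5 = 1`, `g ^ 4 = 1` and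
`g * r * g⁻¹ = r ^ 2` (for instance the Frobenius group of order 20).  If every letter is
mapped to `1` or to one of the three elements `r ^ i1 * g`, `r ^ i2 * g ^ 2`, `r ^ i3 * g ^ 3`
(one in each nontrivial coset of the subgroup generated by `r`, with arbitrary exponents),
then every language recognised by this map has generalized star height at most one. -/
theorem gsh_f20_three [Finite α] (g r : G) (hr : r ^ 5 = 1) (hg : g ^ 4 = 1)
    (hgr : g * r * g⁻¹ = r ^ 2) (i1 i2 i3 : ℕ) (f : α → G)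
    (hf : ∀ c, f c = 1 ∨ f c = r ^ i1 * g ∨ f c = r ^ i2 * g ^ 2 ∨ f c = r ^ i3 * g ^ 3)
    (T : Set G) : HasGSH 1 (fun w : List α => (w.map f).prod ∈ T) := by
  have hk : ∀ c, ∃ k : LK4, f c = valI g r ((i1 : ZMod 5), (i2 : ZMod 5), (i3 : ZMod 5)) k := by
    intro c
    rcases hf c with h | h | h | h
    · exact ⟨LK4.idl, h⟩
    · refine ⟨LK4.up, ?_⟩
      show f c = r ^ ((i1 : ZMod 5)).val * g
      rw [pow_cast r hr, h]
    · refine ⟨LK4.refl, ?_⟩
      show f c = r ^ ((i2 : ZMod 5)).val * g ^ 2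
      rw [pow_cast r hr, h]
    · refine ⟨LK4.dn, ?_⟩
      show f c = r ^ ((i3 : ZMod 5)).val * g ^ 3
      rw [pow_cast r hr, h]
  choose kind hkind using hk
  have h1 := gsh_stepI ((i1 : ZMod 5), (i2 : ZMod 5), (i3 : ZMod 5)) kind {p | elt g r p ∈ T}
  refine h1.congr (fun w => ?_)
  have e1 : w.map f
      = (w.map kind).map (valI g r ((i1 : ZMod 5), (i2 : ZMod 5), (i3 : ZMod 5))) := by
    rw [List.map_map]
    exact List.map_congr_left (fun a _ => hkind a)
  have e2 := elt_runI g r hr hg hgr ((i1 : ZMod 5), (i2 : ZMod 5), (i3 : ZMod 5))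
    (w.map kind) (1, 0) (by decide)
  have e3 : elt g r (1, 0) = 1 := by
    have hd : dlog 1 = 0 := by decide
    have hv : (-(0 : ZMod 5)).val = 0 := by decide
    show r ^ (-(0 : ZMod 5)).val * g ^ dlog 1 = 1
    rw [hd, hv, pow_zero, pow_zero, one_mul]
  rw [e3, one_mul] at e2
  rw [e1, e2]
  rfl

end group

end Vale.Agent.Helper15.F20
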