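import Mathlib

/-!
Helper file for P074: transport cost as an infimum over couplings, the upper bound given by a
pair of maps from a common source, and equality of push-forwards of two-valued maps.
-/

namespace Vale.Agent.Helper15.P074W2

open MeasureTheory

/-- squared Euclidean distance on `Fin d → ℝ` -/
def sqDist {d : ℕ} (x y : Fin d → ℝ) : ℝ := ∑ i, (x i - y i) ^ 2

theorem sqDist_nonneg {d : ℕ} (x y : Fin d → ℝ) : 0 ≤ sqDist x y :=
  Finset.sum_nonneg (fun _ _ => sq_nonneg _)

theorem sqDist_self {d : ℕ} (x : Fin d → ℝ) : sqDist x x = 0 := by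
  simp [sqDist]

theorem sqDist_comm {d : ℕ} (x y : Fin d → ℝ) : sqDist x y = sqDist y x := by
  unfold sqDist
  refine Finset.sum_congr rfl (fun i _ => ?_)
  ring

/-- the two sites of the example: `e_{i0}` and `e_{i0} + t e_{i1}` are at squared distance `t^2` -/
theorem sqDist_sites {d : ℕ} (i0 i1 : Fin d) (t : ℝ) :
    sqDist (Pi.single i0 (1 : ℝ)) (Pi.single i0 (1 : ℝ) + t • Pi.single i1 (1 : ℝ)) = t ^ 2 := by
  unfold sqDist
  rw [Finset.sum_eq_single i1]
  · simp
  · intro b _ hb
    simp [Pi.single_apply, hb]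
  · intro h; exact absurd (Finset.mem_univ _) h

section general

variable {E : Type*} [MeasurableSpace E]

/-- infimum of the transport cost `∫ c dπ` over all couplings `π` of `μ` and `ν` -/
noncomputable def costInf (c : E × E → ENNReal) (μ ν : Measure E) : ENNReal :=
  ⨅ π : {π : Measure (E × E) // π.map Prod.fst = μ ∧ π.map Prod.snd = ν}, ∫⁻ p, c p ∂π.1

/-- A pair of maps from a common source gives a coupling of the two push-forwards. -/
theorem costInf_le_of_maps {Ω : Type*} [MeasurableSpace Ω] (ρ : Measure Ω)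
    (c : E × E → ENNReal) {T1 T2 : Ω → E} (h1 : Measurable T1) (h2 : Measurable T2) :
    costInf c (ρ.map T1) (ρ.map T2) ≤ ∫⁻ x, c (T1 x, T2 x) ∂ρ := by
  have hm : Measurable (fun x => (T1 x, T2 x)) := h1.prodMk h2
  have hfst : (ρ.map (fun x => (T1 x, T2 x))).map Prod.fst = ρ.map T1 := by
    rw [Measure.map_map measurable_fst hm]; rfl
  have hsnd : (ρ.map (fun x => (T1 x, T2 x))).map Prod.snd = ρ.map T2 := by
    rw [Measure.map_map measurable_snd hm]; rfl
  unfold costInf
  refine le_trans (iInf_le _ ⟨ρ.map (fun x => (T1 x, T2 x)), hfst, hsnd⟩) ?_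
  exact lintegral_map_le c _

variable [Zero E]

/-- Push-forwards under two-valued maps `v 1_A`, `v 1_B` agree when `ρ A = ρ B`. -/
theorem map_indicator_eq {Ω : Type*} [MeasurableSpace Ω] (ρ : Measure Ω) [IsFiniteMeasure ρ]
    {A B : Set Ω} (hA : MeasurableSet A) (hB : MeasurableSet B) (h : ρ A = ρ B) (v : E) :
    ρ.map (A.indicator (fun _ => v)) = ρ.map (B.indicator (fun _ => v)) := by
  classical
  refine Measure.ext (fun s hs => ?_)
  rw [Measure.map_apply (measurable_const.indicator hA) hs,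
    Measure.map_apply (measurable_const.indicator hB) hs,
    Set.indicator_const_preimage_eq_union, Set.indicator_const_preimage_eq_union]
  have hc : ρ Aᶜ = ρ Bᶜ := by
    rw [measure_compl hA (measure_ne_top ρ A), measure_compl hB (measure_ne_top ρ B), h]
  by_cases hv : v ∈ s <;> by_cases h0 : (0 : E) ∈ s <;> simp [hv, h0, h, hc]

/-- Cost bound for the two-point targets of the example: source sets `S`, `Tr` of equal mass,
sites `u`, `v` (the other site being `0`). -/
theorem costInf_indicator_le {Ω : Type*} [MeasurableSpace Ω] (ρ : Measure Ω)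
    [IsFiniteMeasure ρ] (c : E × E → ENNReal) (hc0 : c (0, 0) = 0) {S Tr : Set Ω}
    (hS : MeasurableSet S) (hTr : MeasurableSet Tr) (h : ρ S = ρ Tr) (u v : E) :
    costInf c (ρ.map (S.indicator (fun _ => u))) (ρ.map (Tr.indicator (fun _ => v)))
      ≤ c (u, v) * ρ S := by
  rw [← map_indicator_eq ρ hS hTr h v]
  refine le_trans (costInf_le_of_maps ρ c (measurable_const.indicator hS)
    (measurable_const.indicator hS)) ?_
  have hpt : ∀ x, c (S.indicator (fun _ => u) x, S.indicator (fun _ => v) x)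
      = S.indicator (fun _ => c (u, v)) x := by
    intro x
    by_cases hx : x ∈ S
    · simp [Set.indicator_of_mem hx]
    · simp [Set.indicator_of_notMem hx, hc0]
  simp_rw [hpt]
  rw [lintegral_indicator_const hS]

end general

/-- squared Wasserstein-2 distance on `Fin d → ℝ` (possibly infinite): infimum over couplings
of the integral of the squared Euclidean distance -/
noncomputable def W2sq {d : ℕ} (μ ν : Measure (Fin d → ℝ)) : ENNReal :=
  costInf (fun p => ENNReal.ofReal (sqDist p.1 p.2)) μ ν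

/-- `W_2^2 ≤ ∫ |T1 - T2|^2 dρ` for two maps from a common source. -/
theorem W2sq_le_of_maps {d : ℕ} {Ω : Type*} [MeasurableSpace Ω] (ρ : Measure Ω)
    {T1 T2 : Ω → Fin d → ℝ} (h1 : Measurable T1) (h2 : Measurable T2) :
    W2sq (ρ.map T1) (ρ.map T2) ≤ ∫⁻ x, ENNReal.ofReal (sqDist (T1 x) (T2 x)) ∂ρ :=
  costInf_le_of_maps ρ _ h1 h2

/-- The example: `W_2^2 ≤ ρ(S) t^2` for the push-forwards of ρ under u 1_S and v 1_Tr,
`u = e_{i0}`, `v = e_{i0} + t e_{i1}`, when `ρ S = ρ Tr`. -/
theorem W2sq_example_le {d : ℕ} {Ω : Type*} [MeasurableSpace Ω] (ρ : Measure Ω)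
    [IsFiniteMeasure ρ] {S Tr : Set Ω} (hS : MeasurableSet S) (hTr : MeasurableSet Tr)
    (h : ρ S = ρ Tr) (i0 i1 : Fin d) (t : ℝ) :
    W2sq (ρ.map (S.indicator (fun _ => (Pi.single i0 (1 : ℝ) : Fin d → ℝ))))
      (ρ.map (Tr.indicator (fun _ => (Pi.single i0 (1 : ℝ) + t • Pi.single i1 (1 : ℝ) :
        Fin d → ℝ)))) ≤ ENNReal.ofReal (t ^ 2) * ρ S := by
  have := costInf_indicator_le ρ (fun p : (Fin d → ℝ) × (Fin d → ℝ) =>
    ENNReal.ofReal (sqDist p.1 p.2)) (by simp [sqDist_self]) hS hTr h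
    (Pi.single i0 (1 : ℝ)) (Pi.single i0 (1 : ℝ) + t • Pi.single i1 (1 : ℝ))
  simp only [sqDist_sites] at this
  exact this

end Vale.Agent.Helper15.P074W2
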