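import Vale.Agent.Helper15.P329CfOf
import Vale.Agent.Helper28.P329Base

/-!
# Two-way clocks: tasks T10 (`nw_cf`) and T11 (`pop_cf`), unconditional
-/

namespace Vale.Agent.Helper15.P329

open Vale.Agent.Helper10

theorem cfOfBase : CfOfBase :=
  fun δ bad bad0 i0 h0 hcut hb =>
    Vale.Agent.Helper28.P329Base.cf_of_base δ bad bad0 i0 h0 hcut hb

theorem baseOfHeight : BaseOfHeight :=
  fun ε hnone i0 G D h sg hG0 hD0 hD hG hinj =>
    Vale.Agent.Helper28.P329Base.base_of_height ε hnone i0 G D h sg hG0 hD0 hD hG hinj

variable {α : Type} {m : ℕ}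

/-- task T10: the master automaton cut at the arrivals at `0` which are not `evNW` events is
counter-free -/
theorem nw_cf [NeZero m] (up dn tp : α → Bool) (y : ZMod m) :
    CounterFree (gOpt (mStep (m := m) up dn tp)
      (fun q a => evArr0 up dn q a && !evNW up tp y q a)) :=
  nw_cf_of cfOfBase baseOfHeight up dn tp y

/-- task T11: the automaton with one cell cut at the arrivals at `y` which are not pops is
counter-free -/
theorem pop_cf [NeZero m] (up dn tp : α → Bool) (y : ZMod m) :
    CounterFree (gOpt (aStep (m := m) up dn tp y)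
      (fun q a => evArrA up dn y q a && !evPopA up dn y q a)) :=
  pop_cf_of cfOfBase baseOfHeight up dn tp y

end Vale.Agent.Helper15.P329
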