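import Vale.Agent.Helper15.P329NwCf
import Vale.Agent.Helper12.P329Cut

/-!
# Two-way clocks: tasks T10 and T11, conditional on the statements of T2 and T3

`CfOfBase` and `BaseOfHeight` are the statements of the tasks T2 (`cf_of_base`) and T3
(`base_of_height`) of the two-way clock push, verbatim.
-/

namespace Vale.Agent.Helper15.P329

open Vale.Agent.Helper10

/-- the statement of `cf_of_base` (task T2) -/
def CfOfBase : Prop :=
  ∀ {I α : Type} (δ : I → α → I) (bad bad0 : I → α → Bool) (i0 : I)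
    (_h0 : ∀ i a, bad0 i a = true → bad i a = true ∨ δ i a = i0)
    (_hcut : CounterFree (gOpt δ bad0))
    (_hb : ∀ (u : List α) (n : ℕ), 0 < n →
      (fun x => run (gOpt δ bad) x u)^[n] (some i0) = some i0 →
      run (gOpt δ bad) (some i0) u = some i0),
    CounterFree (gOpt δ bad)

/-- the statement of `base_of_height` (task T3) -/
def BaseOfHeight : Prop :=
  ∀ {I α : Type} (ε : Option I → α → Option I) (_hnone : ∀ a, ε none a = none) (i0 : I)
    (G D : I → Prop) (h : I → ℤ) (sg : α → ℤ) (_hG0 : G i0) (_hD0 : ¬ D i0)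
    (_hD : ∀ i a j, D i → ε (some i) a = some j → D j)
    (_hG : ∀ i a j, G i → ε (some i) a = some j → D j ∨ (G j ∧ h j = h i + sg a))
    (_hinj : ∀ i, G i → h i = h i0 → i = i0),
    ∀ (u : List α) (n : ℕ), 0 < n → (fun x => run ε x u)^[n] (some i0) = some i0 →
      run ε (some i0) u = some i0

variable {α : Type} {m : ℕ}

/-- task T10, given T2 and T3 -/
theorem nw_cf_of (hT2 : CfOfBase) (hT3 : BaseOfHeight) [NeZero m] (up dn tp : α → Bool)
    (y : ZMod m) :
    CounterFree (gOpt (mStep (m := m) up dn tp)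
      (fun q a => evArr0 up dn q a && !evNW up tp y q a)) :=
  hT2 (mStep up dn tp) (nwBad up dn tp y) (evArr0 up dn) (mBase m) (nw_h0 up dn tp y)
    (Vale.Agent.Helper12.P329Cut.m_cut_cf up dn tp)
    (hT3 (gOpt (mStep up dn tp) (nwBad up dn tp y)) (fun _ => rfl) (mBase m) nwG nwD nwH
      (sgPM up dn) nw_hG0 nw_hD0 (nw_hD up dn tp y) (nw_hG up dn tp y) nw_hinj)

/-- task T11, given T2 and T3 -/
theorem pop_cf_of (hT2 : CfOfBase) (hT3 : BaseOfHeight) [NeZero m] (up dn tp : α → Bool)
    (y : ZMod m) :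
    CounterFree (gOpt (aStep (m := m) up dn tp y)
      (fun q a => evArrA up dn y q a && !evPopA up dn y q a)) :=
  hT2 (aStep up dn tp y) (popBad up dn y) (evArrA up dn y) (y, none) (pop_h0 up dn tp y)
    (Vale.Agent.Helper12.P329Cut.a_cut_cf up dn tp y)
    (hT3 (gOpt (aStep up dn tp y) (popBad up dn y)) (fun _ => rfl) (y, none) (popG y) (popD y)
      (popH y) (sgPM up dn) (pop_hG0 y) (pop_hD0 y) (pop_hD up dn tp y) (pop_hG up dn tp y)
      (pop_hinj y))

end Vale.Agent.Helper15.P329
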