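import Vale.Agent.Helper15.P329PopCf

/-!
# Two-way clocks: the master automaton, cut at the arrivals which are not `evNW` events

Local conditions for `cf_of_base` and `base_of_height` (tasks T2 and T3 of the two-way clock
push), for the master automaton `mStep` in which the arrivals at the class `0` that are not
`evNW` events are marked.
-/

namespace Vale.Agent.Helper15.P329

open Vale.Agent.Helper10

variable {α : Type} {m : ℕ}

/-- the marked transitions: arrivals at the class `0` which are not `evNW` events -/
def nwBad (up dn tp : α → Bool) (y : ZMod m) :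
    ZMod m × (ZMod m → Option Bool) → α → Bool :=
  fun q a => evArr0 up dn q a && !evNW up tp y q a

/-- the good states: the base state, and the states outside `0` whose entry at `0` is empty -/
def nwG (q : ZMod m × (ZMod m → Option Bool)) : Prop :=
  q = mBase m ∨ (q.1 ≠ 0 ∧ q.2 0 = none)

/-- the dead states: outside `0` with a filled entry at `0` -/
def nwD (q : ZMod m × (ZMod m → Option Bool)) : Prop :=
  q.1 ≠ 0 ∧ q.2 0 ≠ none

/-- the height of a state below the class `0` -/
def nwH (q : ZMod m × (ZMod m → Option Bool)) : ℤ :=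
  if q.1 = 0 then 0 else (q.1.val : ℤ) - m

section cases

variable {up dn tp : α → Bool} {y c : ZMod m} {L : ZMod m → Option Bool} {a : α}

theorem mStep_up_arr' (h : up a = true) (h1 : c + 1 = 0) :
    mStep up dn tp (c, L) a = mBase m :=
  mStep_up_arr up dn tp (c, L) a h h1

theorem mStep_up' (h : up a = true) (h1 : c + 1 ≠ 0) :
    mStep up dn tp (c, L) a
      = (c + 1, Function.update (Function.update L c (some (tp a))) (c + 1) none) :=
  mStep_up up dn tp (c, L) a h h1

theorem mStep_dn_arr' (h : up a = false) (h' : dn a = true) (h1 : c - 1 = 0) :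
    mStep up dn tp (c, L) a = mBase m :=
  mStep_dn_arr up dn tp (c, L) a h h' h1

theorem mStep_dn' (h : up a = false) (h' : dn a = true) (h1 : c - 1 ≠ 0) :
    mStep up dn tp (c, L) a = (c - 1, Function.update L (c - 1) none) :=
  mStep_dn up dn tp (c, L) a h h' h1

theorem mStep_stay' (h : up a = false) (h' : dn a = false) :
    mStep up dn tp (c, L) a = (c, L) :=
  mStep_stay up dn tp (c, L) a h h'

theorem nwBad_up_ne (h : up a = true) (h1 : c + 1 ≠ 0) :
    nwBad up dn tp y (c, L) a = false := by
  simp [nwBad, evArr0, clsArr, h, h1]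

theorem nwBad_up_arr (h : up a = true) (h1 : c + 1 = 0)
    (hb : nwBad up dn tp y (c, L) a = false) :
    Function.update L c (some (tp a)) 0 = none := by
  by_contra hne
  have h2 : nwBad up dn tp y (c, L) a = true := by
    simp [nwBad, evArr0, clsArr, evNW, lam1, h, h1, hne]
  rw [h2] at hb
  exact absurd hb (by simp)

theorem nwBad_dn (h : up a = false) (h' : dn a = true) :
    nwBad up dn tp y (c, L) a = decide (c - 1 = 0) := by
  simp [nwBad, evArr0, clsArr, evNW, h, h']

theorem nwBad_stay (h : up a = false) (h' : dn a = false) :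
    nwBad up dn tp y (c, L) a = false := by
  simp [nwBad, evArr0, clsArr, evNW, h, h']

end cases

theorem nwH_base [NeZero m] : nwH (mBase m) = 0 := by
  show (if (0 : ZMod m) = 0 then (0 : ℤ) else (((0 : ZMod m).val : ℕ) : ℤ) - m) = 0
  rw [if_pos rfl]

theorem nwH_ne [NeZero m] (c : ZMod m) (L : ZMod m → Option Bool) (h : c ≠ 0) :
    nwH (c, L) = (c.val : ℤ) - m := by
  show (if c = 0 then (0 : ℤ) else (c.val : ℤ) - m) = _
  rw [if_neg h]

/-- every arrival at `0` leads to the base state -/
theorem nw_h0 (up dn tp : α → Bool) (y : ZMod m) :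
    ∀ (i : ZMod m × (ZMod m → Option Bool)) (a : α), evArr0 up dn i a = true →
      nwBad up dn tp y i a = true ∨ mStep up dn tp i a = mBase m := by
  rintro ⟨c, L⟩ a h
  right
  cases hu : up a with
  | true =>
    have h1 : c + 1 = 0 := by simpa [evArr0, clsArr, hu] using h
    exact mStep_up_arr' hu h1
  | false =>
    cases hd : dn a with
    | true =>
      have h1 : c - 1 = 0 := by simpa [evArr0, clsArr, hu, hd] using h
      exact mStep_dn_arr' hu hd h1
    | false =>
      simp [evArr0, clsArr, hu, hd] at h

theorem nw_hD (up dn tp : α → Bool) (y : ZMod m) :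
    ∀ (i : ZMod m × (ZMod m → Option Bool)) (a : α) (j : ZMod m × (ZMod m → Option Bool)),
      nwD i → gOpt (mStep up dn tp) (nwBad up dn tp y) (some i) a = some j → nwD j := by
  rintro ⟨c, L⟩ a j ⟨h1, h2⟩ hj
  rw [gOpt_some_iff] at hj
  obtain ⟨hb, rfl⟩ := hj
  simp only at h1 h2
  have h1' : (0 : ZMod m) ≠ c := fun h => h1 h.symm
  cases hu : up a with
  | true =>
    have hc1 : c + 1 ≠ 0 := by
      intro h3
      have h4 := nwBad_up_arr hu h3 hb
      rw [Function.update_of_ne h1'] at h4
      exact h2 h4
    have hc1' : (0 : ZMod m) ≠ c + 1 := fun h => hc1 h.symm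
    rw [mStep_up' hu hc1]
    refine ⟨hc1, ?_⟩
    show Function.update (Function.update L c (some (tp a))) (c + 1) none 0 ≠ none
    rw [Function.update_of_ne hc1', Function.update_of_ne h1']
    exact h2
  | false =>
    cases hd : dn a with
    | true =>
      rw [nwBad_dn hu hd] at hb
      have hc1 : c - 1 ≠ 0 := by simpa using hb
      have hc1' : (0 : ZMod m) ≠ c - 1 := fun h => hc1 h.symm
      rw [mStep_dn' hu hd hc1]
      refine ⟨hc1, ?_⟩
      show Function.update L (c - 1) none 0 ≠ none
      rw [Function.update_of_ne hc1']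
      exact h2
    | false =>
      rw [mStep_stay' hu hd]
      exact ⟨h1, h2⟩

theorem nw_hG [NeZero m] (up dn tp : α → Bool) (y : ZMod m) :
    ∀ (i : ZMod m × (ZMod m → Option Bool)) (a : α) (j : ZMod m × (ZMod m → Option Bool)),
      nwG i → gOpt (mStep up dn tp) (nwBad up dn tp y) (some i) a = some j →
      nwD j ∨ (nwG j ∧ nwH j = nwH i + sgPM up dn a) := by
  rintro ⟨c, L⟩ a j hG hj
  rw [gOpt_some_iff] at hj
  obtain ⟨hb, rfl⟩ := hj
  rcases hG with hG | ⟨h1, h2⟩
  · -- the base state
    obtain ⟨rfl, rfl⟩ := Prod.mk.inj hG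
    cases hu : up a with
    | true =>
      have hc1 : (0 : ZMod m) + 1 ≠ 0 := by
        intro h3
        have h4 := nwBad_up_arr hu h3 hb
        rw [Function.update_self] at h4
        exact absurd h4 (by simp)
      have hc1' : (0 : ZMod m) ≠ 0 + 1 := fun h => hc1 h.symm
      rw [mStep_up' hu hc1]
      left
      refine ⟨hc1, ?_⟩
      show Function.update (Function.update (fun _ => none) (0 : ZMod m) (some (tp a)))
        (0 + 1) none 0 ≠ none
      rw [Function.update_of_ne hc1', Function.update_self]
      simp
    | false =>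
      cases hd : dn a with
      | true =>
        rw [nwBad_dn hu hd] at hb
        have hc1 : (0 : ZMod m) - 1 ≠ 0 := by simpa using hb
        rw [mStep_dn' hu hd hc1]
        right
        refine ⟨Or.inr ⟨hc1, ?_⟩, ?_⟩
        · show Function.update (fun _ => none) ((0 : ZMod m) - 1) none 0 = none
          rw [Function.update_apply]
          split_ifs <;> rfl
        · have e1 : nwH ((0 : ZMod m) - 1,
              Function.update (fun _ => (none : Option Bool)) ((0 : ZMod m) - 1) none)
              = (((0 : ZMod m) - 1).val : ℤ) - m := nwH_ne _ _ hc1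
          have e2 : nwH ((0 : ZMod m), fun _ => (none : Option Bool)) = 0 := nwH_base
          have e3 := val_of_succ_eq_zero ((0 : ZMod m) - 1) (by ring)
          rw [e1, e2, sgPM_dn hu hd]
          linarith
      | false =>
        rw [mStep_stay' hu hd]
        right
        refine ⟨Or.inl rfl, ?_⟩
        rw [sgPM_stay hu hd, add_zero]
  · -- a state outside `0` with an empty entry at `0`
    simp only at h1 h2
    have h1' : (0 : ZMod m) ≠ c := fun h => h1 h.symm
    have e4 : nwH (c, L) = (c.val : ℤ) - m := nwH_ne c L h1
    cases hu : up a with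
    | true =>
      by_cases hc1 : c + 1 = 0
      · rw [mStep_up_arr' hu hc1]
        right
        refine ⟨Or.inl rfl, ?_⟩
        have e3 := val_of_succ_eq_zero c hc1
        rw [nwH_base, e4, sgPM_up hu]
        linarith
      · have hc1' : (0 : ZMod m) ≠ c + 1 := fun h => hc1 h.symm
        rw [mStep_up' hu hc1]
        right
        refine ⟨Or.inr ⟨hc1, ?_⟩, ?_⟩
        · show Function.update (Function.update L c (some (tp a))) (c + 1) none 0 = none
          rw [Function.update_of_ne hc1', Function.update_of_ne h1']
          exact h2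
        · rw [nwH_ne _ _ hc1, e4, val_succ_int c hc1, sgPM_up hu]
          ring
    | false =>
      cases hd : dn a with
      | true =>
        rw [nwBad_dn hu hd] at hb
        have hc1 : c - 1 ≠ 0 := by simpa using hb
        have hc1' : (0 : ZMod m) ≠ c - 1 := fun h => hc1 h.symm
        rw [mStep_dn' hu hd hc1]
        right
        refine ⟨Or.inr ⟨hc1, ?_⟩, ?_⟩
        · show Function.update L (c - 1) none 0 = none
          rw [Function.update_of_ne hc1']
          exact h2
        · rw [nwH_ne _ _ hc1, e4, val_pred_int c h1, sgPM_dn hu hd]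
          ring
      | false =>
        rw [mStep_stay' hu hd]
        right
        refine ⟨Or.inr ⟨h1, h2⟩, ?_⟩
        rw [sgPM_stay hu hd, add_zero]

theorem nw_hinj [NeZero m] :
    ∀ i : ZMod m × (ZMod m → Option Bool), nwG i → nwH i = nwH (mBase m) → i = mBase m := by
  rintro ⟨c, L⟩ hG hh
  rcases hG with hG | ⟨h1, h2⟩
  · exact hG
  · exfalso
    simp only at h1
    rw [nwH_base, nwH_ne c L h1] at hh
    have h5 : c.val < m := ZMod.val_lt c
    have h6 : (c.val : ℤ) < m := by exact_mod_cast h5
    linarith

theorem nw_hG0 : nwG (mBase m) := Or.inl rfl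

theorem nw_hD0 : ¬ nwD (mBase m) := fun h => h.1 rfl

end Vale.Agent.Helper15.P329
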