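import Vale.Agent.Helper10.PMDefs

/-!
# Two-way clocks: the automaton with one cell, cut at the arrivals which are not pops

Local conditions for `cf_of_base` and `base_of_height` (tasks T2 and T3 of the two-way clock
push), for the automaton `aStep` in which the arrivals at the class `y` that are not pops are
marked.
-/

namespace Vale.Agent.Helper15.P329

open Vale.Agent.Helper10

variable {α : Type} {m : ℕ}

theorem val_succ_int [NeZero m] (k : ZMod m) (h : k + 1 ≠ 0) :
    ((k + 1).val : ℤ) = (k.val : ℤ) + 1 := by
  rw [zmod_val_succ m k h]
  push_cast
  rfl

theorem val_pred_int [NeZero m] (k : ZMod m) (h : k ≠ 0) :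
    ((k - 1).val : ℤ) = (k.val : ℤ) - 1 := by
  have h1 : (k - 1) + 1 ≠ 0 := by rwa [sub_add_cancel]
  have h2 := val_succ_int (k - 1) h1
  rw [sub_add_cancel] at h2
  rw [h2]
  ring

theorem val_of_succ_eq_zero [NeZero m] (k : ZMod m) (h : k + 1 = 0) :
    (k.val : ℤ) + 1 = m := by
  have h1 : k.val < m := ZMod.val_lt k
  have h2 : ((k.val + 1 : ℕ) : ZMod m) = 0 := by
    push_cast
    rw [ZMod.natCast_zmod_val]
    exact h
  have h3 : m ∣ k.val + 1 := (ZMod.natCast_eq_zero_iff _ _).mp h2
  have h4 : m ≤ k.val + 1 := Nat.le_of_dvd (Nat.succ_pos _) h3
  have h5 : k.val + 1 = m := by omega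
  exact_mod_cast h5

theorem val_one_int [NeZero m] (h : (1 : ZMod m) ≠ 0) : (((1 : ZMod m).val : ℕ) : ℤ) = 1 := by
  have h1 : (0 : ZMod m) + 1 ≠ 0 := by rwa [zero_add]
  have h2 := val_succ_int (0 : ZMod m) h1
  rw [zero_add] at h2
  rw [h2]
  simp

theorem gOpt_some_iff {I : Type} (δ : I → α → I) (bad : I → α → Bool) (i j : I) (a : α) :
    gOpt δ bad (some i) a = some j ↔ bad i a = false ∧ δ i a = j := by
  show (if bad i a = true then none else some (δ i a)) = some j ↔ _
  cases hb : bad i a <;> simp

/-- the sign of a letter of a two-way clock -/
def sgPM (up dn : α → Bool) (a : α) : ℤ :=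
  if up a = true then 1 else if dn a = true then -1 else 0

theorem sgPM_up {up dn : α → Bool} {a : α} (h : up a = true) : sgPM up dn a = 1 := by
  simp [sgPM, h]

theorem sgPM_dn {up dn : α → Bool} {a : α} (h : up a = false) (h' : dn a = true) :
    sgPM up dn a = -1 := by
  simp [sgPM, h, h']

theorem sgPM_stay {up dn : α → Bool} {a : α} (h : up a = false) (h' : dn a = false) :
    sgPM up dn a = 0 := by
  simp [sgPM, h, h']

/-- the marked transitions: arrivals at the class `y` which are not pops -/
def popBad (up dn : α → Bool) (y : ZMod m) : ZMod m × Option Bool → α → Bool :=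
  fun q a => evArrA up dn y q a && !evPopA up dn y q a

/-- the good states: the base state, and the states outside `y` whose cell is `some true` -/
def popG (y : ZMod m) (q : ZMod m × Option Bool) : Prop :=
  q = (y, none) ∨ (q.1 ≠ y ∧ q.2 = some true)

/-- the dead states: outside `y` with a cell different from `some true` -/
def popD (y : ZMod m) (q : ZMod m × Option Bool) : Prop :=
  q.1 ≠ y ∧ q.2 ≠ some true

/-- the height of a state above the class `y` -/
def popH (y : ZMod m) (q : ZMod m × Option Bool) : ℤ :=
  if q.1 = y then 0 else ((q.1 - y).val : ℤ)

section cases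

variable {up dn tp : α → Bool} {y c : ZMod m} {e : Option Bool} {a : α}

theorem aStep_up (h : up a = true) :
    aStep up dn tp y (c, e) a
      = (c + 1, if c + 1 = 0 then none else if c + 1 = y then none
          else if c = y then some (tp a) else e) := by
  simp [aStep, clsStep, dgPM, aUpd, h]

theorem aStep_dn (h : up a = false) (h' : dn a = true) :
    aStep up dn tp y (c, e) a
      = (c - 1, if c - 1 = 0 then none else if c - 1 = y then none else e) := by
  simp [aStep, clsStep, dgPM, aUpd, h, h', ← sub_eq_add_neg]

theorem aStep_stay (h : up a = false) (h' : dn a = false) :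
    aStep up dn tp y (c, e) a = (c, e) := by
  simp [aStep, clsStep, dgPM, aUpd, h, h']

theorem popBad_up (h : up a = true) :
    popBad up dn y (c, e) a = decide (c + 1 = y) := by
  simp [popBad, evArrA, clsArr, evPopA, h]

theorem popBad_dn (h : up a = false) (h' : dn a = true) :
    popBad up dn y (c, e) a = (decide (c - 1 = y) && !decide (e = some true)) := by
  by_cases h1 : c - 1 = y <;> simp [popBad, evArrA, clsArr, evPopA, h, h', h1]

theorem popBad_stay (h : up a = false) (h' : dn a = false) :
    popBad up dn y (c, e) a = false := by
  simp [popBad, evArrA, clsArr, evPopA, h, h']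

end cases

/-- a marked or unmarked arrival at `y`: an arrival which is not marked leads to the base -/
theorem pop_h0 (up dn tp : α → Bool) (y : ZMod m) :
    ∀ (i : ZMod m × Option Bool) (a : α), evArrA up dn y i a = true →
      popBad up dn y i a = true ∨ aStep up dn tp y i a = (y, none) := by
  rintro ⟨c, e⟩ a h
  by_cases hb : popBad up dn y (c, e) a = true
  · exact Or.inl hb
  · right
    have hb' : popBad up dn y (c, e) a = false := by simpa using hb
    cases hu : up a with
    | true =>
      rw [popBad_up hu] at hb'
      have h1 : c + 1 ≠ y := by simpa using hb'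
      simp [evArrA, clsArr, hu, h1] at h
    | false =>
      cases hd : dn a with
      | true =>
        rw [popBad_dn hu hd] at hb'
        have h1 : c - 1 = y := by
          simpa [evArrA, clsArr, hu, hd] using h
        rw [aStep_dn hu hd, h1]
        simp
      | false =>
        simp [evArrA, clsArr, hu, hd] at h

theorem pop_hD (up dn tp : α → Bool) (y : ZMod m) :
    ∀ (i : ZMod m × Option Bool) (a : α) (j : ZMod m × Option Bool), popD y i →
      gOpt (aStep up dn tp y) (popBad up dn y) (some i) a = some j → popD y j := by
  rintro ⟨c, e⟩ a j ⟨h1, h2⟩ hj
  rw [gOpt_some_iff] at hj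
  obtain ⟨hb, rfl⟩ := hj
  simp only at h1 h2
  cases hu : up a with
  | true =>
    rw [popBad_up hu] at hb
    have hb' : c + 1 ≠ y := by simpa using hb
    rw [aStep_up hu]
    refine ⟨hb', ?_⟩
    show (if c + 1 = 0 then none else if c + 1 = y then none
          else if c = y then some (tp a) else e) ≠ some true
    rw [if_neg hb', if_neg h1]
    split_ifs
    · simp
    · exact h2
  | false =>
    cases hd : dn a with
    | true =>
      rw [popBad_dn hu hd] at hb
      have hb' : c - 1 ≠ y := by
        intro h3
        simp [h3, h2] at hb
      rw [aStep_dn hu hd]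
      refine ⟨hb', ?_⟩
      show (if c - 1 = 0 then none else if c - 1 = y then none else e) ≠ some true
      rw [if_neg hb']
      split_ifs
      · simp
      · exact h2
    | false =>
      rw [aStep_stay hu hd]
      exact ⟨h1, h2⟩

theorem pop_hG [NeZero m] (up dn tp : α → Bool) (y : ZMod m) :
    ∀ (i : ZMod m × Option Bool) (a : α) (j : ZMod m × Option Bool), popG y i →
      gOpt (aStep up dn tp y) (popBad up dn y) (some i) a = some j →
      popD y j ∨ (popG y j ∧ popH y j = popH y i + sgPM up dn a) := by
  rintro ⟨c, e⟩ a j hG hj
  rw [gOpt_some_iff] at hj
  obtain ⟨hb, rfl⟩ := hj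
  rcases hG with hG | ⟨h1, h2⟩
  · -- the base state
    obtain ⟨rfl, rfl⟩ := Prod.mk.inj hG
    cases hu : up a with
    | true =>
      rw [popBad_up hu] at hb
      have hb' : c + 1 ≠ c := by simpa using hb
      have h10 : (1 : ZMod m) ≠ 0 := by
        intro h; apply hb'; rw [h, add_zero]
      rw [aStep_up hu]
      by_cases h0 : c + 1 = 0
      · left
        refine ⟨hb', ?_⟩
        show (if c + 1 = 0 then none else if c + 1 = c then none
          else if c = c then some (tp a) else none) ≠ some true
        rw [if_pos h0]
        simp
      · have e2 : (if c + 1 = 0 then none else if c + 1 = c then none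
          else if c = c then some (tp a) else (none : Option Bool)) = some (tp a) := by
          rw [if_neg h0, if_neg hb', if_pos rfl]
        rw [e2]
        cases ht : tp a with
        | false =>
          left
          exact ⟨hb', by simp⟩
        | true =>
          right
          refine ⟨Or.inr ⟨hb', rfl⟩, ?_⟩
          have e3 : popH c (c + 1, some true) = 1 := by
            show (if c + 1 = c then 0 else ((c + 1 - c).val : ℤ)) = 1
            rw [if_neg hb', add_sub_cancel_left]
            exact val_one_int h10
          have e4 : popH c (c, (none : Option Bool)) = 0 := by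
            show (if c = c then 0 else ((c - c).val : ℤ)) = 0
            rw [if_pos rfl]
          rw [e3, e4]
          simp [sgPM, hu]
    | false =>
      cases hd : dn a with
      | true =>
        rw [popBad_dn hu hd] at hb
        have hb' : c - 1 ≠ c := by
          intro h3
          simp [h3] at hb
        rw [aStep_dn hu hd]
        left
        refine ⟨hb', ?_⟩
        show (if c - 1 = 0 then none else if c - 1 = c then none else none) ≠ some true
        split_ifs <;> simp
      | false =>
        rw [aStep_stay hu hd]
        right
        refine ⟨Or.inl rfl, ?_⟩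
        simp [sgPM, hu, hd]
  · -- a state outside `y` with a full cell
    simp only at h1 h2
    subst h2
    have hcy : c - y ≠ 0 := sub_ne_zero.mpr h1
    have e4 : popH y (c, some true) = ((c - y).val : ℤ) := by
      show (if c = y then 0 else ((c - y).val : ℤ)) = _
      rw [if_neg h1]
    cases hu : up a with
    | true =>
      rw [popBad_up hu] at hb
      have hb' : c + 1 ≠ y := by simpa using hb
      rw [aStep_up hu]
      by_cases h0 : c + 1 = 0
      · left
        refine ⟨hb', ?_⟩
        show (if c + 1 = 0 then none else if c + 1 = y then none
          else if c = y then some (tp a) else some true) ≠ some true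
        rw [if_pos h0]
        simp
      · have e2 : (if c + 1 = 0 then none else if c + 1 = y then none
          else if c = y then some (tp a) else some true) = some true := by
          rw [if_neg h0, if_neg hb', if_neg h1]
        rw [e2]
        right
        refine ⟨Or.inr ⟨hb', rfl⟩, ?_⟩
        have h5 : (c - y) + 1 ≠ 0 := by
          intro h; apply hb'
          have : c + 1 - y = 0 := by rw [← h]; ring
          exact sub_eq_zero.mp this
        have e3 : popH y (c + 1, some true) = ((c - y).val : ℤ) + 1 := by
          show (if c + 1 = y then 0 else ((c + 1 - y).val : ℤ)) = _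
          rw [if_neg hb']
          have : c + 1 - y = (c - y) + 1 := by ring
          rw [this]
          exact val_succ_int (c - y) h5
        rw [e3, e4]
        simp [sgPM, hu]
    | false =>
      cases hd : dn a with
      | true =>
        rw [aStep_dn hu hd]
        by_cases h3 : c - 1 = y
        · right
          have e2 : (if c - 1 = 0 then none else if c - 1 = y then none
              else some true) = (none : Option Bool) := by
            rw [if_pos h3]
            simp
          rw [e2, h3]
          refine ⟨Or.inl rfl, ?_⟩
          have h6 : c - y = 1 := by rw [← h3]; ring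
          have h10 : (1 : ZMod m) ≠ 0 := by rw [← h6]; exact hcy
          have e3 : popH y (y, (none : Option Bool)) = 0 := by
            show (if y = y then 0 else ((y - y).val : ℤ)) = 0
            rw [if_pos rfl]
          rw [e3, e4, h6, val_one_int h10]
          simp [sgPM, hu, hd]
        · by_cases h0 : c - 1 = 0
          · left
            refine ⟨h3, ?_⟩
            show (if c - 1 = 0 then none else if c - 1 = y then none
              else some true) ≠ some true
            rw [if_pos h0]
            simp
          · have e2 : (if c - 1 = 0 then none else if c - 1 = y then none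
              else some true) = some true := by
              rw [if_neg h0, if_neg h3]
            rw [e2]
            right
            refine ⟨Or.inr ⟨h3, rfl⟩, ?_⟩
            have e3 : popH y (c - 1, some true) = ((c - y).val : ℤ) - 1 := by
              show (if c - 1 = y then 0 else ((c - 1 - y).val : ℤ)) = _
              rw [if_neg h3]
              have : c - 1 - y = (c - y) - 1 := by ring
              rw [this]
              exact val_pred_int (c - y) hcy
            rw [e3, e4]
            simp [sgPM, hu, hd]
            ring
      | false =>
        rw [aStep_stay hu hd]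
        right
        refine ⟨Or.inr ⟨h1, rfl⟩, ?_⟩
        simp [sgPM, hu, hd]

theorem pop_hinj [NeZero m] (y : ZMod m) :
    ∀ i : ZMod m × Option Bool, popG y i → popH y i = popH y (y, none) → i = (y, none) := by
  rintro ⟨c, e⟩ hG hh
  rcases hG with hG | ⟨h1, h2⟩
  · exact hG
  · exfalso
    simp only at h1
    have e3 : popH y (y, (none : Option Bool)) = 0 := by
      show (if y = y then 0 else ((y - y).val : ℤ)) = 0
      rw [if_pos rfl]
    have e4 : popH y (c, e) = ((c - y).val : ℤ) := by
      show (if c = y then 0 else ((c - y).val : ℤ)) = _
      rw [if_neg h1]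
    rw [e3, e4] at hh
    have h5 : (c - y).val = 0 := by exact_mod_cast hh
    have h6 : c - y = 0 := (ZMod.val_eq_zero _).mp h5
    exact h1 (sub_eq_zero.mp h6)

theorem pop_hG0 (y : ZMod m) : popG y (y, none) := Or.inl rfl

theorem pop_hD0 (y : ZMod m) : ¬ popD y (y, none) := fun h => h.1 rfl

end Vale.Agent.Helper15.P329
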