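import Vale.Agent.Helper15.F20Fast

/-!
# A cheap certificate for counter-freeness of an automaton with four states

A map on the states `0, 1, 2, 3` is coded by one natural number written in base 16.  If a list
of codes contains the code of the identity, is closed under composition with the codes of the
letters, and the fourth power of each member is fixed by the member, then the automaton is
counter-free.
-/

namespace Vale.Agent.Helper15.S4

open Vale.Agent.Helper10 Vale.Agent.Helper15.F20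

/-- the number with the four given digits in base 16 -/
def pk4 (d0 d1 d2 d3 : ℕ) : ℕ :=
  Nat.add d0 (Nat.mul 16 (Nat.add d1 (Nat.mul 16 (Nat.add d2 (Nat.mul 16 d3)))))

theorem pk4_eq (d0 d1 d2 d3 : ℕ) :
    pk4 d0 d1 d2 d3 = d0 + 16 * (d1 + 16 * (d2 + 16 * d3)) := rfl

theorem dg_pk4 (d0 d1 d2 d3 : ℕ) (h0 : d0 < 16) (h1 : d1 < 16) (h2 : d2 < 16) (h3 : d3 < 16)
    (q : ℕ) (hq : q < 4) : dg (pk4 d0 d1 d2 d3) q = [d0, d1, d2, d3].getD q 0 := by
  rw [dg_eq, pk4_eq]
  interval_cases q <;> norm_num <;> omega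

/-- the code of `f` followed by `g` -/
def cmp4 (f g : ℕ) : ℕ :=
  pk4 (dg g (dg f 0)) (dg g (dg f 1)) (dg g (dg f 2)) (dg g (dg f 3))

theorem dg_cmp4 (f g q : ℕ) (hq : q < 4) : dg (cmp4 f g) q = dg g (dg f q) := by
  unfold cmp4
  rw [dg_pk4 _ _ _ _ (dg_lt _ _) (dg_lt _ _) (dg_lt _ _) (dg_lt _ _) q hq]
  interval_cases q <;> rfl

/-- the code of the identity -/
def idc4 : ℕ := 0x3210

theorem dg_idc4 (q : ℕ) (hq : q < 4) : dg idc4 q = q := by
  interval_cases q <;> rfl

/-- the code of `f` followed by `f` -/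
def sq4 (f : ℕ) : ℕ := cmp4 f f

/-- the fourth power of `f` is fixed by `f` -/
def okc4 (f : ℕ) : Bool := Nat.beq (cmp4 (sq4 (sq4 f)) f) (sq4 (sq4 f))

/-- the search for a code in a list -/
def memb (c : ℕ) : List ℕ → Bool
  | [] => false
  | x :: xs => cond (Nat.beq c x) true (memb c xs)

theorem memb_mem (c : ℕ) : ∀ L : List ℕ, memb c L = true → c ∈ L := by
  intro L
  induction L with
  | nil => intro h; exact absurd h (by simp [memb])
  | cons x xs ih =>
    intro h
    unfold memb at h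
    cases h1 : Nat.beq c x with
    | true =>
      rw [Nat.eq_of_beq_eq_true h1]
      exact List.mem_cons_self
    | false =>
      rw [h1] at h
      exact List.mem_cons_of_mem _ (ih h)

/-- the checker -/
def checkL (gens L : List ℕ) : Bool :=
  memb idc4 L && L.all (fun f => gens.all (fun g => memb (cmp4 f g) L) && okc4 f)

theorem rep_cmp4 {Q : Type} (enc : Q → ℕ) (hlt : ∀ q, enc q < 4) (F G : Q → Q) (f g : ℕ)
    (hF : ∀ x, enc (F x) = dg f (enc x)) (hG : ∀ x, enc (G x) = dg g (enc x)) (x : Q) :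
    enc (G (F x)) = dg (cmp4 f g) (enc x) := by
  rw [dg_cmp4 f g _ (hlt x), ← hF, hG]

theorem rep_sq4 {Q : Type} (enc : Q → ℕ) (hlt : ∀ q, enc q < 4) (F : Q → Q) (f : ℕ) (n : ℕ)
    (hF : ∀ x, enc (F^[n] x) = dg f (enc x)) (x : Q) :
    enc (F^[n + n] x) = dg (sq4 f) (enc x) := by
  rw [Function.iterate_add_apply]
  exact rep_cmp4 enc hlt (F^[n]) (F^[n]) f f hF hF x

theorem fix_of_rep4 {Q : Type} (enc : Q → ℕ) (henc : Function.Injective enc)
    (hlt : ∀ q, enc q < 4) (F : Q → Q) (f : ℕ) (h1 : ∀ x, enc (F x) = dg f (enc x))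
    (hok : okc4 f = true) (q : Q) (k : ℕ) (hk : 0 < k) (hq : F^[k] q = q) : F q = q := by
  have h1' : ∀ x, enc (F^[1] x) = dg f (enc x) := h1
  have h2 : ∀ x, enc (F^[2] x) = dg (sq4 f) (enc x) := rep_sq4 enc hlt F f 1 h1'
  have h4 : ∀ x, enc (F^[4] x) = dg (sq4 (sq4 f)) (enc x) := rep_sq4 enc hlt F _ 2 h2
  have e : cmp4 (sq4 (sq4 f)) f = sq4 (sq4 f) := Nat.eq_of_beq_eq_true hok
  have hfix : ∀ x, F (F^[4] x) = F^[4] x := by
    intro x
    apply henc
    rw [rep_cmp4 enc hlt (F^[4]) F _ f h4 h1 x, e, h4]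
  have h3 : F^[k * 4] q = q := by
    rw [Function.iterate_mul]
    exact Function.iterate_fixed hq 4
  have h5 : F^[4] q = q := by
    have e2 : k * 4 = (k * 4 - 4) + 4 :=
      (Nat.sub_add_cancel (Nat.le_mul_of_pos_left 4 hk)).symm
    rw [e2, Function.iterate_add_apply, Function.iterate_fixed (hfix q)] at h3
    exact h3
  have h6 := hfix q
  rw [h5] at h6
  exact h6

theorem cf_of_checkL {Q α : Type} (δ : Q → α → Q) (enc : Q → ℕ)
    (henc : Function.Injective enc) (hlt : ∀ q, enc q < 4) (tab : α → ℕ)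
    (gens L : List ℕ) (htab : ∀ a, tab a ∈ gens)
    (hstep : ∀ q a, enc (δ q a) = dg (tab a) (enc q))
    (hc : checkL gens L = true) : CounterFree δ := by
  unfold checkL at hc
  rw [Bool.and_eq_true] at hc
  obtain ⟨hid, hall⟩ := hc
  have hid' : idc4 ∈ L := memb_mem _ L hid
  rw [List.all_eq_true] at hall
  have hclosed : ∀ f ∈ L, ∀ g ∈ gens, cmp4 f g ∈ L := by
    intro f hf g hg
    have h1 := hall f hf
    rw [Bool.and_eq_true, List.all_eq_true] at h1
    exact memb_mem _ L (h1.1 g hg)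
  have hok : ∀ f ∈ L, okc4 f = true := by
    intro f hf
    have h1 := hall f hf
    rw [Bool.and_eq_true] at h1
    exact h1.2
  have key : ∀ w : List α, ∃ f ∈ L, ∀ q : Q, enc (run δ q w) = dg f (enc q) := by
    intro w
    induction w using List.reverseRecOn with
    | nil => exact ⟨idc4, hid', fun q => by rw [run_nil, dg_idc4 _ (hlt q)]⟩
    | append_singleton w a ih =>
      obtain ⟨f, hf, h⟩ := ih
      refine ⟨cmp4 f (tab a), hclosed f hf (tab a) (htab a), fun q => ?_⟩
      rw [run_append, run_cons, run_nil, hstep, h, dg_cmp4 f (tab a) _ (hlt q)]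
  intro w q k hk hq
  obtain ⟨f, hf, h⟩ := key w
  exact fix_of_rep4 enc henc hlt (fun x => run δ x w) f h (hok f hf) q k hk hq

theorem cond_beq (i p x y : ℕ) : cond (Nat.beq i p) x y = if i = p then x else y := by
  by_cases h : i = p
  · subst h
    rw [Nat.beq_refl, if_pos rfl]
    rfl
  · have h2 : Nat.beq i p = false := by
      rw [← Bool.not_eq_true]
      intro h3
      exact h (Nat.eq_of_beq_eq_true h3)
    rw [h2, if_neg h]
    rfl

/-- the code of the map with code `v`, with the state `p` made absorbing -/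
def cutc (p v : ℕ) : ℕ :=
  pk4 (cond (Nat.beq 0 p) p (dg v 0)) (cond (Nat.beq 1 p) p (dg v 1))
    (cond (Nat.beq 2 p) p (dg v 2)) (cond (Nat.beq 3 p) p (dg v 3))

theorem dg_cutc (p v q : ℕ) (hp : p < 4) (hq : q < 4) :
    dg (cutc p v) q = if q = p then p else dg v q := by
  have hb : ∀ i : ℕ, cond (Nat.beq i p) p (dg v i) < 16 := by
    intro i
    rw [cond_beq]
    split_ifs
    · omega
    · exact dg_lt _ _
  unfold cutc
  rw [dg_pk4 _ _ _ _ (hb 0) (hb 1) (hb 2) (hb 3) q hq]
  interval_cases q <;> exact cond_beq _ _ _ _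

/-- the three letter codes -/
def gensC (a b p : ℕ) : List ℕ := [idc4, cutc p a, cutc p b]

end Vale.Agent.Helper15.S4
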